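import Vale.Agent.P214.B.Rem0

/-! P214 B/Cone (owner helper61). Helper names end with `_Cone`.
`null_eq`: `AEStronglyMeasurable.nullMeasurableSet_eq_fun`. `cone_dir`: on `G = {P y = Q} ∩ ball x (2 r)` one has
`(x' - x) - Q (x' - x) = ((y - x) - P y (y - x)) - ((y - x') - P y (y - x'))`, so the square is at most `2 nrm P x y + 2 nrm P x' y`;
`setIntegral_const`, `setIntegral_mono_ae_restrict` (`ae_restrict_mem₀`), `setIntegral_mono_set`; `nrm` is integrable on closed balls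
(`Loc.nrm_meas`, `Measure.integrableOn_of_bounded`). `two_max`: `i` maximizes `μ.real (E i ∩ B)` (`Finset.exists_max_image`),
`B \ E i` is a.e. inside `⋃ j ∈ F.erase i, E j ∩ B` (`measure_mono_ae`, `measureReal_biUnion_finset_le`), `Finset.exists_le_of_sum_le`.
-/

namespace Vale.Agent.P214

open MeasureTheory Set Filter Topology Metric
open scoped ENNReal RealInnerProductSpace

variable {m N : ℕ} {μ : Measure (Sp N)} {P : Sp N → Sp N →L[ℝ] Sp N} {O : Set (Sp N)} {c : ℝ}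

theorem Loc.null_eq (h : Loc m μ P O c) (Q : Sp N →L[ℝ] Sp N) :
    NullMeasurableSet {y | P y = Q} μ := by
  exact h.meas.nullMeasurableSet_eq_fun aestronglyMeasurable_const

theorem Loc.cone_dir (h : Loc m μ P O c) {x x' : Sp N} {r K e : ℝ} {Q : Sp N →L[ℝ] Sp N}
    (hr : 0 < r) (he : 0 < e) (hx : ‖x' - x‖ ≤ r)
    (h1 : ∫ y in closedBall x (2 * r), nrm P x y ∂μ ≤ K * r ^ (m + 2))
    (h2 : ∫ y in closedBall x' (3 * r), nrm P x' y ∂μ ≤ K * r ^ (m + 2))
    (hQ : e * r ^ m ≤ μ.real ({y | P y = Q} ∩ ball x (2 * r))) :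
    ‖(x' - x) - Q (x' - x)‖ ^ 2 ≤ 4 * K / e * r ^ 2 := by
  have := h.fin
  have hint : ∀ (z : Sp N) (t : ℝ), IntegrableOn (nrm P z) (closedBall z t) μ := fun z t =>
    Measure.integrableOn_of_bounded (M := t ^ 2) (measure_ne_top _ _) (h.nrm_meas z).1
      ((ae_restrict_mem measurableSet_closedBall).mono fun y hy => by
        rw [Real.norm_of_nonneg ((h.nrm_meas z).2 y).1]
        exact ((h.nrm_meas z).2 y).2.1.trans
          (pow_le_pow_left₀ (norm_nonneg _) (mem_closedBall_iff_norm.1 hy) 2))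
  have s1 : {y | P y = Q} ∩ ball x (2 * r) ⊆ closedBall x (2 * r) := fun y hy =>
    ball_subset_closedBall hy.2
  have s2 : {y | P y = Q} ∩ ball x (2 * r) ⊆ closedBall x' (3 * r) := fun y hy => by
    have a1 := mem_ball.1 hy.2
    have a2 := dist_triangle_right y x' x
    rw [dist_eq_norm x' x] at a2
    exact mem_closedBall.2 (by linarith)
  have b : ∀ (z : Sp N) (t : ℝ), {y | P y = Q} ∩ ball x (2 * r) ⊆ closedBall z t →
      ∫ y in {y | P y = Q} ∩ ball x (2 * r), nrm P z y ∂μ ≤ ∫ y in closedBall z t, nrm P z y ∂μ :=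
    fun z t hs => setIntegral_mono_set (hint z t)
      (ae_of_all _ fun y => ((h.nrm_meas z).2 y).1) hs.eventuallyLE
  have i1 := ((hint x _).mono_set s1).const_mul 2
  have i2 := ((hint x' _).mono_set s2).const_mul 2
  have h3 : ∫ _ in {y | P y = Q} ∩ ball x (2 * r), ‖(x' - x) - Q (x' - x)‖ ^ 2 ∂μ ≤
      ∫ y in {y | P y = Q} ∩ ball x (2 * r), (2 * nrm P x y + 2 * nrm P x' y) ∂μ := by
    refine setIntegral_mono_ae_restrict integrableOn_const (i1.add i2) ((ae_restrict_mem₀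
      ((h.null_eq Q).inter measurableSet_ball.nullMeasurableSet)).mono fun y hy => ?_)
    have e1 : (x' - x) - Q (x' - x) = ((y - x) - P y (y - x)) - ((y - x') - P y (y - x')) := by
      rw [show P y = Q from hy.1]
      simp only [map_sub]
      abel
    have a1 := norm_sub_le ((y - x) - P y (y - x)) ((y - x') - P y (y - x'))
    have a2 := pow_le_pow_left₀ (norm_nonneg _) a1 2
    simp only [nrm]
    rw [e1]
    nlinarith [sq_nonneg (‖(y - x) - P y (y - x)‖ - ‖(y - x') - P y (y - x')‖)]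
  rw [setIntegral_const, smul_eq_mul, integral_add i1 i2, integral_const_mul,
    integral_const_mul] at h3
  have h4 := mul_le_mul_of_nonneg_right hQ (sq_nonneg ‖(x' - x) - Q (x' - x)‖)
  have h5 := b x _ s1
  have h6 := b x' _ s2
  rw [div_mul_eq_mul_div, le_div_iff₀ he]
  refine le_of_mul_le_mul_right ?_ (pow_pos hr m)
  rw [pow_add] at h1 h2
  linarith

theorem two_max [IsFiniteMeasure μ] {ι : Type} {F : Finset ι} (hne : F.Nonempty)
    {E : ι → Set (Sp N)} {B : Set (Sp N)} {e : ℝ} (he : 0 < e)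
    (hc : ∀ᵐ y ∂μ, ∃ i ∈ F, y ∈ E i) (hb : ∀ i ∈ F, e < μ.real (B \ E i)) :
    ∃ i ∈ F, ∃ j ∈ F, i ≠ j ∧ e / F.card ≤ μ.real (E i ∩ B) ∧ e / F.card ≤ μ.real (E j ∩ B) := by
  classical
  obtain ⟨i, hi, hm⟩ := F.exists_max_image (fun i => μ.real (E i ∩ B)) hne
  have hF : (0 : ℝ) < F.card := Nat.cast_pos.2 hne.card_pos
  have h1 : μ.real (B \ E i) ≤ ∑ j ∈ F.erase i, μ.real (E j ∩ B) := by
    refine le_trans ?_ (measureReal_biUnion_finset_le _ _)
    refine ENNReal.toReal_mono (measure_ne_top _ _) (measure_mono_ae (hc.mono ?_))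
    rintro y ⟨j, hj, hy⟩ hB
    exact mem_iUnion₂.2 ⟨j, Finset.mem_erase.2 ⟨fun e => hB.2 (e ▸ hy), hj⟩, hy, hB.1⟩
  obtain ⟨j, hj, h2⟩ : ∃ j ∈ F.erase i, e / F.card ≤ μ.real (E j ∩ B) := by
    by_contra! h3
    have h4 := Finset.sum_le_card_nsmul _ _ _ fun j hj => (h3 j hj).le
    have h5 : ((F.erase i).card : ℝ) ≤ F.card := Nat.cast_le.2 Finset.card_erase_le
    have h6 := mul_le_mul_of_nonneg_right h5 (div_pos he hF).le
    rw [mul_div_cancel₀ _ hF.ne'] at h6
    rw [nsmul_eq_mul] at h4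
    linarith [hb i hi]
  obtain ⟨a1, a2⟩ := Finset.mem_erase.1 hj
  exact ⟨i, hi, j, a2, a1.symm, h2.trans (hm j a2), h2⟩

end Vale.Agent.P214
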