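import Vale.Agent.P214.B.Step

/-! P214 B/Decay (owner helper61). Helper names end with `_Decay`.
`decay`: `τ = min (1 / 8) (1 / (2 * 8 ^ m * C))`, `t = τ s`, `ε = c τ ^ m / (2 (n + 1))`, induction on `k`.
`tilt_null`: `dens_pt` for `D = tilt P ν` (`(h.null_bad ν).compl`) with `η = 1 / 2` along `ρ = r / 8 ^ k / 2 → 0`;
`μ (closedBall z ρ) ≤ 2 μ (D ∩ ball z (2 ρ))`, `Loc.lower` with `t = ρ / 2` gives `c / 4 ^ m ≤ 2 ε / 2 ^ k` for large `k`.
`eps_lev`: `decay` at all `z ∈ ball x r`, `tilt_null`, `Loc.levels` at `(x, r)`: a.e. point of `ball x (r / 2)` has level in `H`;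
take `ρ ≤ r / 2` with `‖ν‖ ρ < |τ - ⟪ν, x⟫|` for all `τ ∈ H`, `τ ≠ ⟪ν, x⟫` (`Filter.eventually_all_finset`).
-/

namespace Vale.Agent.P214

open MeasureTheory Set Filter Topology Metric
open scoped ENNReal RealInnerProductSpace

variable {m N : ℕ} {μ : Measure (Sp N)} {P : Sp N → Sp N →L[ℝ] Sp N} {O : Set (Sp N)} {c : ℝ}

theorem Loc.decay (h : Loc m μ P O c) {ν : Sp N} {δ Λ : ℝ} (hg : GapAt μ P ν δ) (hΛ : 0 < Λ) :
    ∃ ε : ℝ, 0 < ε ∧ ∀ (x : Sp N) (r : ℝ), 0 < r → closedBall x (2 * r) ⊆ O →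
      Up m μ (ball x r) r Λ → μ.real (tilt P ν ∩ ball x r) ≤ ε * r ^ m →
      ∀ k : ℕ, μ.real (tilt P ν ∩ ball x (r / 8 ^ k)) ≤ ε * (r / 8 ^ k) ^ m / 2 ^ k := by
  have := h.fin
  obtain ⟨n, C, hC, hstep⟩ := h.step hg hΛ
  have hc := h.cpos
  obtain ⟨τ, τ0, τ1, τ2⟩ : ∃ τ : ℝ, 0 < τ ∧ τ ≤ 1 / 8 ∧ τ ≤ 1 / (2 * 8 ^ m * C) :=
    ⟨min (1 / 8) (1 / (2 * 8 ^ m * C)), by positivity, min_le_left _ _, min_le_right _ _⟩
  have τ3 : C * τ ≤ 1 / (2 * 8 ^ m) := by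
    calc C * τ ≤ C * (1 / (2 * 8 ^ m * C)) := by gcongr
      _ = 1 / (2 * 8 ^ m) := by field_simp
  refine ⟨c * τ ^ m / (2 * (n + 1)), by positivity, ?_⟩
  intro x r hr hB hU h0 k
  induction k with
  | zero => simpa using h0
  | succ k ih =>
    have h8 : (1 : ℝ) ≤ 8 ^ k := one_le_pow₀ (by norm_num)
    have h2 : (1 : ℝ) ≤ 2 ^ k := one_le_pow₀ (by norm_num)
    have hsr : r / 8 ^ k ≤ r := div_le_self hr.le h8
    have e : r / 8 ^ (k + 1) = r / 8 ^ k / 8 := by rw [pow_succ, div_div]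
    rw [e]
    generalize hs : r / 8 ^ k = s at *
    have s0 : 0 < s := by rw [← hs]; positivity
    have hlt : (n + 1) * μ.real (tilt P ν ∩ ball x s) < c * (τ * s) ^ m := by
      have a1 : μ.real (tilt P ν ∩ ball x s) ≤ c * τ ^ m / (2 * (n + 1)) * s ^ m :=
        ih.trans (div_le_self (by positivity) h2)
      have a2 : 0 < c * (τ * s) ^ m := by positivity
      calc (n + 1) * μ.real (tilt P ν ∩ ball x s)
          ≤ (n + 1) * (c * τ ^ m / (2 * (n + 1)) * s ^ m) := by gcongr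
        _ = c * (τ * s) ^ m / 2 := by rw [mul_pow]; field_simp
        _ < c * (τ * s) ^ m := by linarith
    have hst := hstep x s (τ * s) (by positivity) (by nlinarith)
      ((closedBall_subset_closedBall (by linarith)).trans hB)
      (fun z hz t ht hts => hU z (ball_subset_ball hsr hz) t ht (hts.trans hsr)) hlt
    calc μ.real (tilt P ν ∩ ball x (s / 8)) ≤ C * (τ * s) / s * μ.real (tilt P ν ∩ ball x s) := hst
      _ = C * τ * μ.real (tilt P ν ∩ ball x s) := by field_simp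
      _ ≤ 1 / (2 * 8 ^ m) * (c * τ ^ m / (2 * (n + 1)) * s ^ m / 2 ^ k) := by gcongr
      _ = c * τ ^ m / (2 * (n + 1)) * (s / 8) ^ m / 2 ^ (k + 1) := by
        rw [div_pow, pow_succ]; field_simp

theorem Loc.tilt_null (h : Loc m μ P O c) {ν x : Sp N} {r ε : ℝ} (hr : 0 < r)
    (hB : closedBall x (2 * r) ⊆ O) (hd : ∀ z ∈ ball x r, ∀ k : ℕ,
      μ.real (tilt P ν ∩ ball z (r / 8 ^ k)) ≤ ε * (r / 8 ^ k) ^ m / 2 ^ k) :
    μ (tilt P ν ∩ ball x r) = 0 := by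
  have := h.fin
  have hc := h.cpos
  have hD : NullMeasurableSet (tilt P ν) μ := (h.null_bad ν).compl
  rw [measure_eq_zero_iff_ae_notMem]
  filter_upwards [dens_pt hD, μ.support_mem_ae] with z hz hs hmem
  have t8 : Tendsto (fun k : ℕ => r / 8 ^ k / 2) atTop (𝓝[>] 0) := by
    rw [tendsto_nhdsWithin_iff]
    refine ⟨?_, Eventually.of_forall fun k => mem_Ioi.2 (by positivity)⟩
    have := ((tendsto_pow_atTop_atTop_of_one_lt (by norm_num : (1 : ℝ) < 8)).const_div_atTop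
      r).div_const 2
    simpa using this
  have t2 : Tendsto (fun k : ℕ => 2 * ε / 2 ^ k) atTop (𝓝 0) :=
    (tendsto_pow_atTop_atTop_of_one_lt (by norm_num : (1 : ℝ) < 2)).const_div_atTop _
  have c4 : (0 : ℝ) < c / 4 ^ m := by positivity
  obtain ⟨k, k1, k2⟩ :=
    ((t8.eventually (hz hmem.1 (1 / 2) (by norm_num))).and (t2.eventually_lt_const c4)).exists
  have h8 : (1 : ℝ) ≤ 8 ^ k := one_le_pow₀ (by norm_num)
  have hsr : r / 8 ^ k ≤ r := div_le_self hr.le h8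
  have k3 := hd z hmem.2 k
  have s0 : 0 < r / 8 ^ k := by positivity
  generalize r / 8 ^ k = s at *
  have hzx : dist z x < r := hmem.2
  have low := h.lower hs (t := s / 4) (by positivity)
    ((closedBall_subset_closedBall' (by linarith)).trans hB)
  have a1 : μ.real (ball z (2 * (s / 4))) ≤ μ.real (closedBall z (s / 2)) :=
    measureReal_mono (ball_subset_closedBall.trans (closedBall_subset_closedBall (by linarith)))
  have a2 : μ.real (closedBall z (s / 2)) ≤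
      μ.real (tilt P ν ∩ ball z s) + μ.real (closedBall z (s / 2) \ tilt P ν) := by
    refine le_trans (measureReal_mono ?_) (measureReal_union_le _ _)
    intro y hy
    by_cases hy' : y ∈ tilt P ν
    · exact Or.inl ⟨hy', closedBall_subset_ball (by linarith) hy⟩
    · exact Or.inr ⟨hy, hy'⟩
  have a3 : c * (s / 4) ^ m ≤ 2 * (ε * s ^ m / 2 ^ k) := by linarith
  have sm : 0 < s ^ m := by positivity
  have a4 : c / 4 ^ m * s ^ m ≤ 2 * ε / 2 ^ k * s ^ m := by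
    calc c / 4 ^ m * s ^ m = c * (s / 4) ^ m := by rw [div_pow]; ring
      _ ≤ 2 * (ε * s ^ m / 2 ^ k) := a3
      _ = 2 * ε / 2 ^ k * s ^ m := by ring
  exact absurd (le_of_mul_le_mul_right a4 sm) (not_le.2 k2)

theorem Loc.eps_lev (h : Loc m μ P O c) {ν : Sp N} {δ Λ : ℝ} (hg : GapAt μ P ν δ) (hΛ : 0 < Λ) :
    ∃ ε : ℝ, 0 < ε ∧ ∀ (x : Sp N) (r : ℝ), 0 < r → closedBall x (3 * r) ⊆ O →
      Up m μ (ball x (2 * r)) r Λ → μ.real (tilt P ν ∩ ball x (2 * r)) ≤ ε * r ^ m →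
      ∃ ρ : ℝ, 0 < ρ ∧ ball x ρ ⊆ O ∧ ∀ᵐ y ∂μ, y ∈ ball x ρ → ⟪ν, y⟫ = ⟪ν, x⟫ := by
  have := h.fin
  obtain ⟨ε, hε, hdec⟩ := h.decay hg hΛ
  obtain ⟨n, hlev⟩ := h.levels hg hΛ
  refine ⟨ε, hε, ?_⟩
  intro x r hr hB hU h0
  have hB2 : closedBall x (2 * r) ⊆ O := (closedBall_subset_closedBall (by linarith)).trans hB
  have hnull : μ (tilt P ν ∩ ball x r) = 0 := by
    refine h.tilt_null (ε := ε) hr hB2 fun z hz => ?_
    have hzx : dist z x < r := hz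
    have hsub : ball z r ⊆ ball x (2 * r) := ball_subset_ball' (by linarith)
    refine hdec z r hr ((closedBall_subset_closedBall' (by linarith)).trans hB)
      (fun w hw => hU w (hsub hw)) (le_trans (measureReal_mono ?_) h0)
    exact inter_subset_inter_right _ hsub
  obtain ⟨H, -, hH⟩ := hlev x r hr hB2 fun w hw => hU w (ball_subset_ball (by linarith) hw)
  have hz : μ.real (tilt P ν ∩ ball x r) = 0 := by rw [measureReal_def, hnull]; rfl
  rw [hz, mul_zero] at hH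
  have hH0 : μ (ball x (r / 2) \ {y | ⟪ν, y⟫ ∈ H}) = 0 :=
    (measureReal_eq_zero_iff (measure_ne_top _ _)).1 (le_antisymm hH measureReal_nonneg)
  have e1 : ∀ᶠ ρ in 𝓝[>] (0 : ℝ), ∀ τ ∈ H, τ ≠ ⟪ν, x⟫ → ‖ν‖ * ρ < |τ - ⟪ν, x⟫| := by
    rw [Filter.eventually_all_finset]
    intro τ _
    by_cases hτ : τ = ⟪ν, x⟫
    · exact Eventually.of_forall fun ρ h' => absurd hτ h'
    · have hp : 0 < |τ - ⟪ν, x⟫| := abs_pos.2 (sub_ne_zero.2 hτ)
      have ht : Tendsto (fun ρ : ℝ => ‖ν‖ * ρ) (𝓝 0) (𝓝 (‖ν‖ * 0)) :=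
        tendsto_const_nhds.mul tendsto_id
      rw [mul_zero] at ht
      exact ((ht.eventually_lt_const hp).filter_mono nhdsWithin_le_nhds).mono fun ρ h' _ => h'
  have e2 : ∀ᶠ ρ in 𝓝[>] (0 : ℝ), ρ ∈ Ioo 0 (r / 2) := Ioo_mem_nhdsGT (by linarith)
  obtain ⟨ρ, r1, r2⟩ := (e1.and e2).exists
  refine ⟨ρ, r2.1, ?_, ?_⟩
  · exact ball_subset_closedBall.trans
      ((closedBall_subset_closedBall (by linarith [r2.2])).trans hB)
  · filter_upwards [measure_eq_zero_iff_ae_notMem.1 hH0] with y hy hyρ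
    have hyH : ⟪ν, y⟫ ∈ H := by
      by_contra hn
      exact hy ⟨ball_subset_ball r2.2.le hyρ, hn⟩
    by_contra hne
    have a1 := r1 _ hyH hne
    have a2 : |⟪ν, y⟫ - ⟪ν, x⟫| ≤ ‖ν‖ * ‖y - x‖ := by
      rw [← inner_sub_right]
      exact abs_real_inner_le_norm _ _
    have a3 : ‖y - x‖ < ρ := by rwa [← dist_eq_norm]
    have a4 : ‖ν‖ * ‖y - x‖ ≤ ‖ν‖ * ρ := by gcongr
    linarith

end Vale.Agent.P214
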