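import Vale.Agent.P214.Main

/-! P214 B/Defs (owner helper61, frozen): notions for the dimension bound. -/

namespace Vale.Agent.P214

open MeasureTheory Set Filter Topology Metric
open scoped ENNReal RealInnerProductSpace

noncomputable section

variable {N : ℕ}

/-- Points where `ν` is not normal. -/
def tilt (P : Sp N → Sp N →L[ℝ] Sp N) (ν : Sp N) : Set (Sp N) := {y | P y ν ≠ 0}

/-- Smoothed density ratio. -/
def th (m : ℕ) (μ : Measure (Sp N)) (x : Sp N) (t : ℝ) : ℝ := (t ^ m)⁻¹ * ∫ y, bump x t y ∂μ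

/-- Squared normal part of the position vector. -/
def nrm (P : Sp N → Sp N →L[ℝ] Sp N) (x y : Sp N) : ℝ := ‖(y - x) - P y (y - x)‖ ^ 2

end

end Vale.Agent.P214
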