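import Vale.Agent.P214.B.Defs

/-! P214 B/Grid (owner helper61). Helper names end with `_Grid`.
A grid in a subspace. `b = stdOrthonormalBasis ℝ L`, `d = finrank L ≤ k`, step `η = τ / (k + 1)`, `J = ⌈2 / η⌉₊ + 1`,
`t` the image of `Fintype.piFinset fun _ => Finset.Icc (-J : ℤ) J` under `n ↦ ∑ i, (η * n i) • b i`; `n i = ⌊repr v i / η⌋`,
`|repr v i| ≤ ‖v‖`, `‖v - w‖ ≤ ∑ i, η ≤ τ` (`b.sum_repr`, `norm_sum_le`); `card ≤ (2 J + 1) ^ d ≤ (9 (k + 1) / τ) ^ k`; `C = (9 (k + 1)) ^ k`.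
-/

namespace Vale.Agent.P214

open MeasureTheory Set Filter Topology Metric
open scoped ENNReal RealInnerProductSpace

variable {m N : ℕ} {μ : Measure (Sp N)} {P : Sp N → Sp N →L[ℝ] Sp N} {O : Set (Sp N)} {c : ℝ}

theorem cover_sub (k : ℕ) : ∃ C : ℝ, 0 < C ∧ ∀ L : Submodule ℝ (Sp N), Module.finrank ℝ L ≤ k →
    ∀ τ : ℝ, 0 < τ → τ ≤ 1 → ∃ t : Finset (Sp N), (t.card : ℝ) ≤ C / τ ^ k ∧
      ∀ v ∈ L, ‖v‖ ≤ 2 → ∃ w ∈ t, ‖v - w‖ ≤ τ := by
  classical
  have hk : (0 : ℝ) < k + 1 := by positivity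
  refine ⟨(9 * (k + 1)) ^ k, by positivity, fun L hL τ h0 h1 => ?_⟩
  obtain ⟨η, hη⟩ : ∃ η : ℝ, η = τ / (k + 1) := ⟨_, rfl⟩
  have hη0 : 0 < η := hη ▸ div_pos h0 hk
  have hη1 : η ≤ 1 := by
    rw [hη, div_le_one hk]
    have : (0 : ℝ) ≤ k := Nat.cast_nonneg k
    linarith
  have hητ : η * (k + 1) = τ := by rw [hη]; field_simp
  obtain ⟨J, hJ⟩ : ∃ J : ℕ, J = ⌈2 / η⌉₊ + 1 := ⟨_, rfl⟩
  have hJ1 : 2 / η + 1 ≤ (J : ℝ) := by
    rw [hJ]
    push_cast
    linarith [Nat.le_ceil (2 / η)]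
  have hJ2 : (J : ℝ) ≤ 2 / η + 2 := by
    rw [hJ]
    push_cast
    linarith [Nat.ceil_lt_add_one (div_pos two_pos hη0).le]
  set b := stdOrthonormalBasis ℝ L with hb
  refine ⟨(Fintype.piFinset fun _ : Fin (Module.finrank ℝ L) => Finset.Icc (-(J : ℤ)) J).image
    fun n => ((∑ i, (η * (n i : ℝ)) • b i : L) : Sp N), ?_, fun v hv hv2 => ?_⟩
  · have h2 : ((Fintype.piFinset fun _ : Fin (Module.finrank ℝ L) =>
        Finset.Icc (-(J : ℤ)) J).card) = (2 * J + 1) ^ Module.finrank ℝ L := by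
      rw [Fintype.card_piFinset, Finset.prod_const, Int.card_Icc, Finset.card_univ,
        Fintype.card_fin]
      congr 1
      omega
    refine (Nat.cast_le.2 Finset.card_image_le).trans ?_
    rw [h2]
    push_cast
    have h3 : 1 ≤ 1 / η := by rw [le_div_iff₀ hη0]; linarith
    have h4 : 2 / η = 2 * (1 / η) := by ring
    have h5 : 2 * (J : ℝ) + 1 ≤ 9 * (1 / η) := by linarith
    have h6 : 9 * (1 / η) = 9 * (k + 1) / τ := by
      rw [← hητ]
      field_simp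
    rw [← div_pow, ← h6]
    exact (pow_le_pow_left₀ (by positivity) h5 _).trans (pow_le_pow_right₀ (by linarith) hL)
  · set u : L := ⟨v, hv⟩ with hu
    have hun : ‖u‖ ≤ 2 := hv2
    have hr : ∀ i, |b.repr u i| ≤ 2 := by
      intro i
      rw [b.repr_apply_apply]
      refine (abs_real_inner_le_norm _ _).trans ?_
      rw [b.orthonormal.1 i, one_mul]
      exact hun
    refine ⟨_, Finset.mem_image.2 ⟨fun i => ⌊b.repr u i / η⌋, ?_, rfl⟩, ?_⟩
    · refine Fintype.mem_piFinset.2 fun i => Finset.mem_Icc.2 ⟨?_, ?_⟩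
      · refine Int.le_floor.2 ?_
        push_cast
        have h7 : -(2 / η) ≤ b.repr u i / η := by
          rw [← neg_div]
          exact div_le_div_of_nonneg_right (abs_le.1 (hr i)).1 hη0.le
        linarith
      · have h7 : b.repr u i / η ≤ 2 / η := div_le_div_of_nonneg_right (abs_le.1 (hr i)).2 hη0.le
        have h8 : ((⌊b.repr u i / η⌋ : ℤ) : ℝ) ≤ ((J : ℤ) : ℝ) := by
          push_cast
          linarith [Int.floor_le (b.repr u i / η)]
        exact Int.cast_le.1 h8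
    · have h9 : u - ∑ i, (η * ((⌊b.repr u i / η⌋ : ℤ) : ℝ)) • b i =
          ∑ i, (b.repr u i - η * ((⌊b.repr u i / η⌋ : ℤ) : ℝ)) • b i := by
        simp only [sub_smul, Finset.sum_sub_distrib, b.sum_repr]
      have h10 : ‖u - ∑ i, (η * ((⌊b.repr u i / η⌋ : ℤ) : ℝ)) • b i‖ ≤ τ := by
        rw [h9]
        refine (norm_sum_le _ _).trans ?_
        have h11 : ∀ i ∈ (Finset.univ : Finset (Fin (Module.finrank ℝ L))),
            ‖(b.repr u i - η * ((⌊b.repr u i / η⌋ : ℤ) : ℝ)) • b i‖ ≤ η := by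
          intro i _
          rw [norm_smul, b.orthonormal.1 i, mul_one, Real.norm_eq_abs, abs_le]
          have k1 := Int.floor_le (b.repr u i / η)
          have k2 := Int.lt_floor_add_one (b.repr u i / η)
          rw [le_div_iff₀ hη0] at k1
          rw [div_lt_iff₀ hη0] at k2
          constructor <;> nlinarith
        refine (Finset.sum_le_sum h11).trans ?_
        rw [Finset.sum_const, Finset.card_univ, Fintype.card_fin, nsmul_eq_mul, ← hητ]
        have h12 : (Module.finrank ℝ L : ℝ) ≤ k := Nat.cast_le.2 hL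
        nlinarith
      exact h10

end Vale.Agent.P214
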