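import Vale.Agent.P214.B.Haus0
import Vale.Agent.P214.B.Grid

/-! P214 B/Haus (owner helper61). Helper names end with `_Haus`.
`C` from `cover_sub`; `τ ≤ 1 / 8` with `C * 4 ^ s * τ ^ (s - k) < 1` (the map `τ ↦ τ ^ (s - k)` tends to `0`, `Real.continuousAt_rpow_const`),
`M = ⌊C / τ ^ k⌋₊`, `σ = 4 τ`. For `y`, `w` put `v = r⁻¹ • w ∈ L`, `‖v‖ ≤ 2`; `g ∈ t` near `v` gives `dist y (z + r • g) ≤ 2 τ r`;
for each `g` whose ball `closedBall (z + r • g) (2 τ r)` meets `A` choose a point of `A` in it (`Finset.image`, `Finset.filter`).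
-/

namespace Vale.Agent.P214

open MeasureTheory Set Filter Topology Metric
open scoped ENNReal RealInnerProductSpace

variable {m N : ℕ} {μ : Measure (Sp N)} {P : Sp N → Sp N →L[ℝ] Sp N} {O : Set (Sp N)} {c : ℝ}

theorem small_Haus {C a : ℝ} (ha : 0 < a) : ∃ τ : ℝ, 0 < τ ∧ τ ≤ 1 / 8 ∧ C * τ ^ a < 1 := by
  have h1 : ContinuousAt (fun τ : ℝ => C * τ ^ a) 0 :=
    continuousAt_const.mul (Real.continuousAt_rpow_const 0 a (Or.inr ha.le))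
  have h2 : ∀ᶠ τ in 𝓝 (0 : ℝ), C * τ ^ a < 1 :=
    h1.eventually_lt continuousAt_const (by simp [Real.zero_rpow ha.ne'])
  have h3 : ∀ᶠ τ in 𝓝[>] (0 : ℝ), τ ∈ Ioc (0 : ℝ) (1 / 8) := Ioc_mem_nhdsGT (by norm_num)
  obtain ⟨τ, h4, h5⟩ := (h3.and (h2.filter_mono nhdsWithin_le_nhds)).exists
  exact ⟨τ, h4.1, h4.2, h5⟩

theorem pick_Haus {A : Set (Sp N)} {z : Sp N} (hz : z ∈ A) (p : Sp N) (ρ : ℝ) :
    ∃ a ∈ A, ∀ y ∈ A, dist y p ≤ ρ → dist y a ≤ 2 * ρ := by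
  by_cases h : ∃ a ∈ A, dist a p ≤ ρ
  · obtain ⟨a, ha, hp⟩ := h
    exact ⟨a, ha, fun y _ hy => by linarith [dist_triangle_right y a p]⟩
  · exact ⟨z, hz, fun y hy hp => absurd ⟨y, hy, hp⟩ h⟩

theorem null_of_near (k : ℕ) {s : ℝ} (hs : (k : ℝ) < s) : ∃ τ : ℝ, 0 < τ ∧
    ∀ (A : Set (Sp N)) (r₀ : ℝ), 0 < r₀ → (∀ z ∈ A, ∀ r, 0 < r → r ≤ r₀ →
      ∃ L : Submodule ℝ (Sp N), Module.finrank ℝ L ≤ k ∧
        ∀ y ∈ A ∩ closedBall z r, ∃ w ∈ L, ‖y - z - w‖ ≤ τ * r) → μH[s] A = 0 := by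
  classical
  obtain ⟨C, hC, hcov⟩ := cover_sub (N := N) k
  obtain ⟨τ, h0, h1, h2⟩ := small_Haus (C := C * 4 ^ s) (sub_pos.2 hs)
  refine ⟨τ, h0, fun A r₀ hr₀ h => null_of_cover (M := ⌊C / τ ^ k⌋₊) (σ := 4 * τ) (by positivity)
    (by linarith) ((Nat.cast_nonneg k).trans_lt hs) ?_ hr₀ fun z hz r hr hr' => ?_⟩
  · refine lt_of_le_of_lt ?_ h2
    rw [Real.mul_rpow (by norm_num) h0.le, Real.rpow_sub h0, Real.rpow_natCast]
    refine (mul_le_mul_of_nonneg_right (Nat.floor_le (by positivity)) (by positivity)).trans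
      (le_of_eq ?_)
    ring
  obtain ⟨L, hL, hn⟩ := h z hz r hr hr'
  obtain ⟨t, ht, hg⟩ := hcov L hL τ h0 (by linarith)
  choose a haA ha using fun g : Sp N => pick_Haus hz (z + r • g) (2 * τ * r)
  refine ⟨t.image a, fun y hy => ?_, Finset.card_image_le.trans (Nat.le_floor ht), fun y hy => ?_⟩
  · obtain ⟨g, -, rfl⟩ := Finset.mem_image.1 (Finset.mem_coe.1 hy)
    exact haA g
  obtain ⟨w, hw, hw'⟩ := hn y hy
  have h3 : ‖y - z‖ ≤ r := by rw [← dist_eq_norm]; exact hy.2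
  have h4 : ‖w‖ ≤ 2 * r := by
    have h5 := norm_sub_le (y - z) (y - z - w)
    rw [sub_sub_cancel] at h5
    nlinarith
  obtain ⟨g, hgt, hg'⟩ := hg (r⁻¹ • w) (L.smul_mem _ hw) (by
    rw [norm_smul, norm_inv, Real.norm_of_nonneg hr.le, inv_mul_le_iff₀ hr]
    linarith)
  have h6 : dist y (z + r • g) ≤ 2 * τ * r := by
    have e : y - (z + r • g) = (y - z - w) + r • (r⁻¹ • w - g) := by
      rw [smul_sub, smul_inv_smul₀ hr.ne']
      abel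
    have h7 := norm_add_le (y - z - w) (r • (r⁻¹ • w - g))
    rw [norm_smul, Real.norm_of_nonneg hr.le] at h7
    have h8 := mul_le_mul_of_nonneg_left hg' hr.le
    rw [dist_eq_norm, e]
    linarith
  refine mem_iUnion₂.2 ⟨a g, Finset.mem_image_of_mem a hgt, ?_⟩
  have h9 := ha g y hy.1 h6
  rw [mem_closedBall]
  linarith

end Vale.Agent.P214
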