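import Vale.Agent.P214.B.Defs

/-! P214 B/Haus0 (owner helper61). Helper names end with `_Haus0`.
Iterated coverings. Cover `A` by countably many `closedBall z r₀`, `z ∈ A` (`TopologicalSpace.countable_cover_nhdsWithin`); for one of them,
by induction on `n` there is a finset `t ⊆ A`, `card ≤ M ^ n`, with `A ∩ closedBall z r₀ ⊆ ⋃ w ∈ t, closedBall w (σ ^ n * r₀)`
(`Finset.biUnion`, `Finset.card_biUnion_le_card_mul`); `Measure.hausdorffMeasure_le_liminf_sum` along `atTop`,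
`ediam (closedBall w r) ≤ ofReal (2 r)`, the sums are at most `ofReal ((2 r₀) ^ s * (M * σ ^ s) ^ n) → 0`.
-/

namespace Vale.Agent.P214

open MeasureTheory Set Filter Topology Metric
open scoped ENNReal RealInnerProductSpace

variable {m N : ℕ} {μ : Measure (Sp N)} {P : Sp N → Sp N →L[ℝ] Sp N} {O : Set (Sp N)} {c : ℝ}

theorem iter_Haus0 {A : Set (Sp N)} {M : ℕ} {σ r₀ : ℝ} (hσ : 0 < σ) (hσ1 : σ < 1)
    (hr : 0 < r₀) (h : ∀ z ∈ A, ∀ r, 0 < r → r ≤ r₀ →
      ∃ t : Finset (Sp N), (t : Set (Sp N)) ⊆ A ∧ t.card ≤ M ∧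
        A ∩ closedBall z r ⊆ ⋃ w ∈ t, closedBall w (σ * r)) {z : Sp N} (hz : z ∈ A) (n : ℕ) :
    ∃ t : Finset (Sp N), (t : Set (Sp N)) ⊆ A ∧ t.card ≤ M ^ n ∧
      A ∩ closedBall z r₀ ⊆ ⋃ w ∈ t, closedBall w (σ ^ n * r₀) := by
  classical
  induction n with
  | zero => exact ⟨{z}, by simpa using hz, by simp, by simp⟩
  | succ n ih =>
    obtain ⟨t, htA, htc, hcov⟩ := ih
    have h0 : 0 < σ ^ n * r₀ := by positivity
    have h1 : σ ^ n * r₀ ≤ r₀ := mul_le_of_le_one_left hr.le (pow_le_one₀ hσ.le hσ1.le)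
    choose! T hTA hTc hT using fun w (hw : w ∈ A) => h w hw _ h0 h1
    refine ⟨t.biUnion T, fun y hy => ?_, ?_, fun y hy => ?_⟩
    · obtain ⟨w, hw, hy⟩ := Finset.mem_biUnion.1 (Finset.mem_coe.1 hy)
      exact hTA w (htA hw) hy
    · rw [pow_succ]
      exact (Finset.card_biUnion_le_card_mul t T M fun w hw => hTc w (htA hw)).trans
        (Nat.mul_le_mul_right _ htc)
    · obtain ⟨w, hw, hyw⟩ := mem_iUnion₂.1 (hcov hy)
      obtain ⟨u, hu, hyu⟩ := mem_iUnion₂.1 (hT w (htA hw) ⟨hy.1, hyw⟩)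
      refine mem_iUnion₂.2 ⟨u, Finset.mem_biUnion.2 ⟨w, hw, hu⟩, ?_⟩
      rwa [pow_succ', mul_assoc]

theorem ediam_Haus0 (w : Sp N) (r : ℝ) : ediam (closedBall w r) ≤ ENNReal.ofReal (2 * r) := by
  refine ediam_le_of_forall_dist_le fun x hx y hy => ?_
  have := dist_triangle_right x y w
  rw [mem_closedBall] at hx hy
  linarith

theorem null_of_cover {A : Set (Sp N)} {M : ℕ} {σ s r₀ : ℝ} (hσ : 0 < σ) (hσ1 : σ < 1) (hs : 0 < s)
    (hM : M * σ ^ s < 1) (hr : 0 < r₀) (h : ∀ z ∈ A, ∀ r, 0 < r → r ≤ r₀ →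
      ∃ t : Finset (Sp N), (t : Set (Sp N)) ⊆ A ∧ t.card ≤ M ∧
        A ∩ closedBall z r ⊆ ⋃ w ∈ t, closedBall w (σ * r)) : μH[s] A = 0 := by
  refine measure_null_of_locally_null A fun z hz =>
    ⟨A ∩ closedBall z r₀, inter_mem_nhdsWithin A (closedBall_mem_nhds z hr), ?_⟩
  choose t _ htc hcov using iter_Haus0 hσ hσ1 hr h hz
  have hlim : Tendsto (fun n : ℕ => ENNReal.ofReal (2 * (σ ^ n * r₀))) atTop (𝓝 0) := by
    rw [← ENNReal.ofReal_zero]
    refine ENNReal.tendsto_ofReal ?_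
    simpa using ((tendsto_pow_atTop_nhds_zero_of_lt_one hσ.le hσ1).mul_const r₀).const_mul 2
  have h1 := Measure.hausdorffMeasure_le_liminf_sum (ι := fun n : ℕ => t n) s
    (A ∩ closedBall z r₀) _ hlim (fun n w => closedBall (w : Sp N) (σ ^ n * r₀))
    (Eventually.of_forall fun n w => ediam_Haus0 _ _)
    (Eventually.of_forall fun n y hy => by
      obtain ⟨w, hw, hyw⟩ := mem_iUnion₂.1 (hcov n hy)
      exact mem_iUnion.2 ⟨⟨w, hw⟩, hyw⟩)
  have h2 : Tendsto (fun n : ℕ => ENNReal.ofReal ((2 * r₀) ^ s * (M * σ ^ s) ^ n)) atTop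
      (𝓝 0) := by
    rw [← ENNReal.ofReal_zero]
    refine ENNReal.tendsto_ofReal ?_
    simpa using (tendsto_pow_atTop_nhds_zero_of_lt_one (by positivity) hM).const_mul
      ((2 * r₀) ^ s)
  have h3 : ∀ n : ℕ, ∑ w : t n, ediam (closedBall (w : Sp N) (σ ^ n * r₀)) ^ s ≤
      ENNReal.ofReal ((2 * r₀) ^ s * (M * σ ^ s) ^ n) := by
    intro n
    have e1 : (2 * (σ ^ n * r₀)) ^ s = (2 * r₀) ^ s * (σ ^ s) ^ n := by
      rw [mul_left_comm, Real.mul_rpow (by positivity) (by positivity), mul_comm,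
        ← Real.rpow_natCast, ← Real.rpow_mul hσ.le, mul_comm (n : ℝ), Real.rpow_mul hσ.le,
        Real.rpow_natCast]
    calc ∑ w : t n, ediam (closedBall (w : Sp N) (σ ^ n * r₀)) ^ s
        ≤ ∑ _w : t n, ENNReal.ofReal ((2 * (σ ^ n * r₀)) ^ s) := by
          refine Finset.sum_le_sum fun w _ => ?_
          rw [← ENNReal.ofReal_rpow_of_nonneg (by positivity) hs.le]
          exact ENNReal.rpow_le_rpow (ediam_Haus0 _ _) hs.le
      _ = ENNReal.ofReal ((t n).card * ((2 * r₀) ^ s * (σ ^ s) ^ n)) := by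
          rw [Finset.sum_const, Finset.card_univ, Fintype.card_coe, nsmul_eq_mul, e1,
            ENNReal.ofReal_mul (Nat.cast_nonneg _), ENNReal.ofReal_natCast]
      _ ≤ _ := by
          refine ENNReal.ofReal_le_ofReal ?_
          have e2 : ((t n).card : ℝ) ≤ (M : ℝ) ^ n := by exact_mod_cast htc n
          rw [mul_pow, mul_left_comm]
          gcongr
  have h4 := tendsto_of_tendsto_of_tendsto_of_le_of_le tendsto_const_nhds h2
    (fun n => zero_le) h3
  rw [h4.liminf_eq] at h1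
  exact le_antisymm h1 zero_le

end Vale.Agent.P214
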