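import Vale.Agent.P214.B.Split2

/-! P214 B/Levels (owner helper61). Helper names end with `_Levels`.
Finitely many levels carry most of the mass. `levels`: `ε` from `Loc.dich`, `Λ ≤ (n + 1) ε`; `split2` for
`κ = map ⟪ν, ·⟫ (μ.restrict (ball x s))`, `map ⟪ν, ·⟫ (μ.restrict (ball x (s / 2)))`, `a = ε s ^ m`, `b = μ.real (tilt ∩ ball x s)`
(`slab ν s t` is the preimage of `Ioo s t`, `bad P ν τ ⊆ tilt P ν`), wide `s, t`; copy `Loc.false_Atom` in P214/Atom.lean.
`near`: otherwise `ball y (2 t) ⊆ ball x (s / 2) \ levels` (`abs_real_inner_le_norm`), against `Loc.lower`.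
-/

namespace Vale.Agent.P214

open MeasureTheory Set Filter Topology Metric
open scoped ENNReal RealInnerProductSpace

variable {m N : ℕ} {μ : Measure (Sp N)} {P : Sp N → Sp N →L[ℝ] Sp N} {O : Set (Sp N)} {c : ℝ}

theorem Loc.levels (h : Loc m μ P O c) {ν : Sp N} {δ Λ : ℝ} (hg : GapAt μ P ν δ) (hΛ : 0 < Λ) :
    ∃ n : ℕ, ∀ (x : Sp N) (s : ℝ), 0 < s → closedBall x (2 * s) ⊆ O → Up m μ (ball x s) s Λ →
      ∃ H : Finset ℝ, H.card ≤ n ∧ μ.real (ball x (s / 2) \ {y | ⟪ν, y⟫ ∈ H}) ≤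
        (n + 1) * μ.real (tilt P ν ∩ ball x s) := by
  have := h.fin
  have ml : Measurable fun y : Sp N => ⟪ν, y⟫ := by fun_prop
  obtain ⟨ε, hε, hd⟩ := h.dich hg hΛ
  obtain ⟨n, hn⟩ := exists_nat_ge (Λ / ε)
  rw [div_le_iff₀ hε] at hn
  refine ⟨n, fun x r hr hO hU => ?_⟩
  have p0 : 0 < r ^ m := pow_pos hr m
  have u1 := hU x (mem_ball_self hr) r hr le_rfl
  have k1 : ∀ (S : Set (Sp N)) (A : Set ℝ), MeasurableSet A →
      (Measure.map (fun y => ⟪ν, y⟫) (μ.restrict S)).real A =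
        μ.real ((fun y => ⟪ν, y⟫) ⁻¹' A ∩ S) := fun S A hA => by
    rw [map_measureReal_apply ml hA, measureReal_restrict_apply (ml hA)]
  obtain ⟨H, hH, sp⟩ := split2 (κ := Measure.map (fun y => ⟪ν, y⟫) (μ.restrict (ball x r)))
    (ν := Measure.map (fun y => ⟪ν, y⟫) (μ.restrict (ball x (r / 2)))) (a := ε * r ^ m)
    (b := μ.real (tilt P ν ∩ ball x r)) (by positivity) measureReal_nonneg (fun s t hk => by
      rw [k1 _ _ measurableSet_Ioo] at hk ⊢
      rcases hd x r s t hr hO hU hk with k | ⟨ρ, hρ, k⟩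
      · exact (le_of_eq k).trans measureReal_nonneg
      · refine (measureReal_mono (inter_subset_inter_right _ (ball_subset_ball hρ.1))).trans
          (k.le.trans (measureReal_mono fun y hy => ?_))
        exact ⟨hy.1.1, ball_subset_ball hρ.2 hy.2⟩) n
    (⟪ν, x⟫ - ‖ν‖ * r - 1) (⟪ν, x⟫ + ‖ν‖ * r + 1) (by
      rw [k1 _ _ measurableSet_Ioo]
      refine (measureReal_mono fun y hy => ball_subset_closedBall hy.2).trans (u1.trans ?_)
      have := mul_le_mul_of_nonneg_right hn p0.le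
      have : 0 < ε * r ^ m := by positivity
      linarith)
  rw [k1 _ _ (measurableSet_Ioo.diff H.measurableSet)] at sp
  refine ⟨H, hH, (measureReal_mono fun y hy => ?_).trans sp⟩
  have q1 : ‖y - x‖ ≤ r := by
    rw [← dist_eq_norm]
    linarith [mem_ball.1 hy.1]
  have q2 := abs_le.1 ((abs_real_inner_le_norm ν (y - x)).trans
    (mul_le_mul_of_nonneg_left q1 (norm_nonneg ν)))
  rw [inner_sub_right] at q2
  exact ⟨⟨⟨by linarith [q2.1], by linarith [q2.2]⟩, hy.2⟩, hy.1⟩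

theorem Loc.near (h : Loc m μ P O c) {ν x y : Sp N} {H : Finset ℝ} {s t : ℝ} (ht : 0 < t)
    (hts : t ≤ s / 8) (hB : closedBall x s ⊆ O)
    (hH : μ.real (ball x (s / 2) \ {y | ⟪ν, y⟫ ∈ H}) < c * t ^ m) (hy : y ∈ μ.support)
    (hy' : y ∈ ball x (s / 4)) : ∃ τ ∈ H, |⟪ν, y⟫ - τ| ≤ 2 * t * ‖ν‖ := by
  have := h.fin
  have d := mem_ball.1 hy'
  by_contra hn
  have lo := h.lower hy ht ((closedBall_subset_closedBall' (by linarith)).trans hB)
  refine absurd (lo.trans (measureReal_mono fun z hz => ?_)) (not_le.2 hH)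
  refine ⟨ball_subset_ball' (by linarith) hz, fun hz' => hn ⟨_, hz', ?_⟩⟩
  have q1 : ‖y - z‖ ≤ 2 * t := by
    rw [← dist_eq_norm, dist_comm]
    exact (mem_ball.1 hz).le
  rw [← inner_sub_right, mul_comm]
  exact (abs_real_inner_le_norm ν (y - z)).trans (mul_le_mul_of_nonneg_left q1 (norm_nonneg ν))

end Vale.Agent.P214
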