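import Vale.Agent.P214.B.Defs

/-! P214 B/Lin (owner helper61). Helper names end with `_Lin`.
Linear algebra. `inf_dist`: the linear map `v ↦ (v - P_A v, v - P_B v)` from `(A ⊓ B)ᗮ` to the product is injective, so
antilipschitz (`LinearMap.exists_antilipschitzWith`); `w = (A ⊓ B).starProjection v`. `inf_dist_fin`: a common bound over the finite set of pairs
(`Set.Finite.induction_on` or `choose` and a sum). `finrank_inf`: `Submodule.finrank_lt_finrank_of_lt`, `Submodule.eq_of_le_of_finrank_eq`.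
`gap_of_finite`: the minimum over a finite set.
-/

namespace Vale.Agent.P214

open MeasureTheory Set Filter Topology Metric
open scoped ENNReal RealInnerProductSpace

variable {m N : ℕ} {μ : Measure (Sp N)} {P : Sp N → Sp N →L[ℝ] Sp N} {O : Set (Sp N)} {c : ℝ}

theorem inf_dist (A B : Submodule ℝ (Sp N)) : ∃ C : ℝ, 0 < C ∧ ∀ v, ∃ w ∈ A ⊓ B,
    ‖v - w‖ ≤ C * (‖v - A.starProjection v‖ + ‖v - B.starProjection v‖) := by
  let f : ↥(A ⊓ B)ᗮ →ₗ[ℝ] Sp N × Sp N :=
    ((LinearMap.id - A.starProjection.toLinearMap).prod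
      (LinearMap.id - B.starProjection.toLinearMap)).comp (A ⊓ B)ᗮ.subtype
  have hf : ∀ u : ↥(A ⊓ B)ᗮ, f u = (u.1 - A.starProjection u, u.1 - B.starProjection u) :=
    fun u => rfl
  obtain ⟨K, hK, h⟩ := f.exists_antilipschitzWith (LinearMap.ker_eq_bot'.2 fun u hu => by
    rw [hf, Prod.mk_eq_zero, sub_eq_zero, sub_eq_zero] at hu
    have h1 : u.1 ∈ A ⊓ B :=
      ⟨hu.1 ▸ A.starProjection_apply_mem _, hu.2 ▸ B.starProjection_apply_mem _⟩
    exact Subtype.ext (inner_self_eq_zero.1 (u.2 _ h1)))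
  refine ⟨K, hK, fun v => ⟨_, (A ⊓ B).starProjection_apply_mem v, ?_⟩⟩
  have hw := (A ⊓ B).starProjection_apply_mem v
  have h1 := h.le_mul_norm (map_zero f) ⟨_, (A ⊓ B).sub_starProjection_mem_orthogonal v⟩
  rw [hf] at h1
  simp only [map_sub, Submodule.starProjection_eq_self_iff.2 hw.1,
    Submodule.starProjection_eq_self_iff.2 hw.2, sub_sub_sub_cancel_right] at h1
  refine h1.trans (mul_le_mul_of_nonneg_left ?_ K.coe_nonneg)
  exact max_le (le_add_of_nonneg_right (norm_nonneg _)) (le_add_of_nonneg_left (norm_nonneg _))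

theorem inf_dist_fin {F : Set (Submodule ℝ (Sp N))} (hF : F.Finite) : ∃ C : ℝ, 0 < C ∧
    ∀ A ∈ F, ∀ B ∈ F, ∀ v, ∃ w ∈ A ⊓ B,
      ‖v - w‖ ≤ C * (‖v - A.starProjection v‖ + ‖v - B.starProjection v‖) := by
  choose C h0 hC using fun p : Submodule ℝ (Sp N) × Submodule ℝ (Sp N) => inf_dist p.1 p.2
  obtain ⟨M, hM⟩ := ((hF.prod hF).image C).bddAbove
  refine ⟨max M 1, lt_max_of_lt_right one_pos, fun A hA B hB v => ?_⟩
  obtain ⟨w, hw, h⟩ := hC (A, B) v
  exact ⟨w, hw, h.trans (mul_le_mul_of_nonneg_right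
    (le_max_of_le_left (hM (mem_image_of_mem C (mk_mem_prod hA hB)))) (by positivity))⟩

theorem finrank_inf {A B : Submodule ℝ (Sp N)} (hA : Module.finrank ℝ A = m)
    (hB : Module.finrank ℝ B = m) (hne : A ≠ B) : Module.finrank ℝ ↥(A ⊓ B) ≤ m - 1 := by
  have h : A ⊓ B < A := lt_of_le_of_ne inf_le_left fun e =>
    hne (Submodule.eq_of_le_of_finrank_eq (inf_eq_left.1 e) (hA.trans hB.symm))
  have := Submodule.finrank_lt_finrank_of_lt h
  omega

theorem gap_of_finite {F : Set (Submodule ℝ (Sp N))} (hF : F.Finite) (ν : Sp N) :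
    ∃ δ : ℝ, 0 < δ ∧ ∀ T ∈ F, T.starProjection ν = 0 ∨ δ ≤ ‖T.starProjection ν‖ := by
  induction F, hF using Set.Finite.induction_on with
  | empty => exact ⟨1, one_pos, fun T hT => absurd hT (notMem_empty T)⟩
  | @insert S F _ _ ih =>
    obtain ⟨δ, hδ, h⟩ := ih
    by_cases e : S.starProjection ν = 0
    · exact ⟨δ, hδ, forall_mem_insert.2 ⟨Or.inl e, h⟩⟩
    · exact ⟨min δ ‖S.starProjection ν‖, lt_min hδ (norm_pos_iff.2 e),
        forall_mem_insert.2 ⟨Or.inr (min_le_right _ _),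
          fun T hT => (h T hT).imp_right (min_le_left _ _).trans⟩⟩

end Vale.Agent.P214
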