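import Vale.Agent.P214.B.Rem0

/-! P214 B/Rem (owner helper61). Helper names end with `_Rem`.
The remainder in the monotonicity formula. `rem0`: `Φ t = ρ ^ (m + 2) * th t - ∫ nrm * bump x t` has derivative
`∫ nrm * (-deriv gam) * 2 / t ^ 3 * (ρ ^ (m + 2) / t ^ m - ‖y - x‖ ^ 2) ≥ 0` on `[σ, ρ]` (`deriv gam = 0` for `‖y - x‖ > t`, `gam_deriv`);
`monotoneOn_of_deriv_nonneg`. `rem`: `∫ nrm * bump x σ ≤ σ ^ 2 * μ.real univ` (`int_le`), `σ → 0`; `indicator ≤ bump` (`bump_one`).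
`drop`: `th` is monotone on `(0, R]` (`Loc.mono1`) and nonnegative; take `r` with `th r < sInf + κ` (`Real.lt_sInf_add_pos`).
-/

namespace Vale.Agent.P214

open MeasureTheory Set Filter Topology Metric
open scoped ENNReal RealInnerProductSpace

variable {m N : ℕ} {μ : Measure (Sp N)} {P : Sp N → Sp N →L[ℝ] Sp N} {O : Set (Sp N)} {c : ℝ}

theorem Loc.J_Rem (h : Loc m μ P O c) (x : Sp N) {t : ℝ} (ht : 0 < t) :
    Integrable (fun y => nrm P x y * bump x t y) μ ∧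
    Integrable (fun y => nrm P x y *
      (deriv gam (‖y - x‖ ^ 2 / t ^ 2) * (-2 * ‖y - x‖ ^ 2 / t ^ 3))) μ ∧
    Integrable (fun y => nrm P x y * deriv gam (‖y - x‖ ^ 2 / t ^ 2)) μ ∧
    HasDerivAt (fun s => ∫ y, nrm P x y * bump x s y ∂μ)
      (∫ y, nrm P x y * (deriv gam (‖y - x‖ ^ 2 / t ^ 2) * (-2 * ‖y - x‖ ^ 2 / t ^ 3)) ∂μ) t :=
  h.der_J (C := (2 * t) ^ 2) (h.nrm_meas x).1 x ht fun y hy => by
    rw [abs_of_nonneg ((h.nrm_meas x).2 y).1]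
    exact ((h.nrm_meas x).2 y).2.1.trans
      (pow_le_pow_left₀ (norm_nonneg _) (mem_closedBall_iff_norm.1 hy) 2)

theorem Loc.rem0 (h : Loc m μ P O c) {x : Sp N} {σ ρ : ℝ} (hσ : 0 < σ) (hσρ : σ ≤ ρ)
    (hB : closedBall x ρ ⊆ O) :
    ∫ y, nrm P x y * bump x ρ y ∂μ - ∫ y, nrm P x y * bump x σ y ∂μ ≤
      ρ ^ (m + 2) * (th m μ x ρ - th m μ x σ) := by
  obtain ⟨B, -, hg⟩ := gam_deriv
  obtain ⟨hm, hn⟩ := h.nrm_meas x
  have hd : ∀ s ∈ Icc σ ρ, ∃ d, 0 ≤ d ∧ HasDerivAt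
      (fun s => ρ ^ (m + 2) * th m μ x s - ∫ y, nrm P x y * bump x s y ∂μ) d s := by
    intro s hs
    have hs0 : 0 < s := hσ.trans_le hs.1
    obtain ⟨-, i2, i3, d1⟩ := h.J_Rem x hs0
    refine ⟨_, ?_, ((h.eq_I hs0 ((closedBall_subset_closedBall hs.2).trans hB)).const_mul
      (ρ ^ (m + 2))).fun_sub d1⟩
    rw [sub_nonneg, ← mul_assoc, ← integral_const_mul]
    refine integral_mono i2 (i3.const_mul _) fun y => ?_
    dsimp only
    rcases lt_or_ge 1 (‖y - x‖ ^ 2 / s ^ 2) with h1 | h1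
    · simp only [(hg _).2.2 h1, zero_mul, mul_zero, le_refl]
    · rw [div_le_one (by positivity)] at h1
      have h2 : ‖y - x‖ ^ 2 / s ^ 3 ≤ ρ ^ (m + 2) / s ^ (m + 3) := by
        rw [div_le_div_iff₀ (by positivity) (by positivity)]
        calc ‖y - x‖ ^ 2 * s ^ (m + 3) ≤ s ^ 2 * s ^ (m + 3) := by gcongr
          _ = s ^ (m + 2) * s ^ 3 := by ring
          _ ≤ _ := by gcongr; exact hs.2
      have h3 := mul_le_mul_of_nonneg_left h2
        (mul_nonneg (hn y).1 (neg_nonneg.2 (hg (‖y - x‖ ^ 2 / s ^ 2)).2.1))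
      calc _ = 2 * (nrm P x y * -deriv gam (‖y - x‖ ^ 2 / s ^ 2) * (‖y - x‖ ^ 2 / s ^ 3)) := by ring
        _ ≤ 2 * (nrm P x y * -deriv gam (‖y - x‖ ^ 2 / s ^ 2) * (ρ ^ (m + 2) / s ^ (m + 3))) := by
          linarith
        _ = _ := by ring
  have hm := monotoneOn_of_deriv_nonneg (convex_Icc σ ρ)
    (f := fun s => ρ ^ (m + 2) * th m μ x s - ∫ y, nrm P x y * bump x s y ∂μ)
    (fun s hs => (hd s hs).choose_spec.2.continuousAt.continuousWithinAt)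
    (fun s hs => (hd s (interior_subset hs)).choose_spec.2.differentiableAt.differentiableWithinAt)
    (fun s hs => by
      obtain ⟨d, d0, d1⟩ := hd s (interior_subset hs)
      rwa [d1.deriv])
  have := hm (left_mem_Icc.2 hσρ) (right_mem_Icc.2 hσρ) hσρ
  simp only at this
  linarith

theorem Loc.rem (h : Loc m μ P O c) {x : Sp N} {ρ κ : ℝ} (hρ : 0 < ρ) (hB : closedBall x ρ ⊆ O)
    (hd : ∀ σ, 0 < σ → σ ≤ ρ → th m μ x ρ - th m μ x σ ≤ κ) :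
    ∫ y in closedBall x (ρ / 2), nrm P x y ∂μ ≤ κ * ρ ^ (m + 2) := by
  have := h.fin
  obtain ⟨-, hn⟩ := h.nrm_meas x
  have i1 := (h.J_Rem x hρ).1
  have h1 : ∫ y in closedBall x (ρ / 2), nrm P x y ∂μ ≤ ∫ y, nrm P x y * bump x ρ y ∂μ := by
    rw [← setIntegral_congr_fun measurableSet_closedBall
      (f := fun y => nrm P x y * bump x ρ y) fun y hy => by
        simp only [bump_one hρ hy, mul_one]]
    exact setIntegral_le_integral i1
      (Eventually.of_forall fun y => mul_nonneg (hn y).1 (bump_mem x ρ y).1)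
  have h2 : ∀ σ ∈ Ioc 0 ρ, ∫ y, nrm P x y * bump x ρ y ∂μ ≤
      κ * ρ ^ (m + 2) + σ ^ 2 * μ.real univ := fun σ hσ => by
    have h3 := h.rem0 hσ.1 hσ.2 hB
    have h4 := mul_le_mul_of_nonneg_left (hd σ hσ.1 hσ.2) (pow_pos hρ (m + 2)).le
    have h5 := (abs_le.1 (int_le (μ := μ) (f := fun y => nrm P x y * bump x σ y) (S := univ)
      (L := σ ^ 2) (fun y hy => absurd (mem_univ y) hy) fun y => by
        rw [abs_of_nonneg (mul_nonneg (hn y).1 (bump_mem x σ y).1)]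
        by_cases hy : y ∈ ball x σ
        · exact (mul_le_of_le_one_right (hn y).1 (bump_mem x σ y).2).trans ((hn y).2.1.trans
            (pow_le_pow_left₀ (norm_nonneg _) (mem_ball_iff_norm.1 hy).le 2))
        · rw [bump_zero hσ.1 hy, mul_zero]
          positivity)).2
    linarith
  have h6 : Tendsto (fun σ : ℝ => κ * ρ ^ (m + 2) + σ ^ 2 * μ.real univ) (𝓝[>] 0)
      (𝓝 (κ * ρ ^ (m + 2))) :=
    tendsto_nhdsWithin_of_tendsto_nhds (Continuous.tendsto' (by fun_prop) _ _ (by simp))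
  exact h1.trans (ge_of_tendsto h6 (mem_of_superset (Ioc_mem_nhdsGT hρ) h2))

theorem Loc.drop (h : Loc m μ P O c) {x : Sp N} (hx : x ∈ O) {κ : ℝ} (hκ : 0 < κ) :
    ∃ r : ℝ, 0 < r ∧ ∀ σ ρ, 0 < σ → σ ≤ ρ → ρ ≤ r → th m μ x ρ - th m μ x σ ≤ κ := by
  obtain ⟨R, hR, hB⟩ := nhds_basis_closedBall.mem_iff.1 (h.op.mem_nhds hx)
  have hm : ∀ σ ρ, 0 < σ → σ ≤ ρ → ρ ≤ R → th m μ x σ ≤ th m μ x ρ := fun σ ρ h1 h2 h3 =>
    h.mono1 h1 h2 ((closedBall_subset_closedBall h3).trans hB)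
  have hb : BddBelow (th m μ x '' Ioc 0 R) := ⟨0, by
    rintro _ ⟨t, ht, rfl⟩
    exact mul_nonneg (inv_nonneg.2 (pow_pos ht.1 m).le)
      (integral_nonneg fun y => (bump_mem x t y).1)⟩
  obtain ⟨_, ⟨r, hr, rfl⟩, h1⟩ := Real.lt_sInf_add_pos
    ((nonempty_Ioc.2 hR).image (th m μ x)) hκ
  refine ⟨r, hr.1, fun σ ρ h2 h3 h4 => ?_⟩
  have h5 := csInf_le hb ⟨σ, ⟨h2, h3.trans (h4.trans hr.2)⟩, rfl⟩
  have h6 := hm ρ r (h2.trans_le h3) h4 hr.2
  linarith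

end Vale.Agent.P214
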