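import Vale.Agent.P214.B.Reg
import Vale.Agent.P214.B.Cone
import Vale.Agent.P214.B.Rem
import Vale.Agent.P214.B.Haus

/-! P214 B/Main (owner helper61). Helper names end with `_Main`.
Assembly (helper61).
-/

namespace Vale.Agent.P214

open MeasureTheory Set Filter Topology Metric
open scoped ENNReal RealInnerProductSpace

variable {m N : ℕ} {μ : Measure (Sp N)} {P : Sp N → Sp N →L[ℝ] Sp N} {O : Set (Sp N)} {c : ℝ}

variable {U : Set (Sp N)}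

theorem Loc.near_BMain (h : Loc m μ P O c) {z y : Sp N} {r κ e a j : ℝ} {Q : Sp N →L[ℝ] Sp N}
    (hr : 0 < r) (he : 0 < e) (ha : 0 < a) (hκ : κ = e * a ^ 2 / (4 * 6 ^ (m + 2)))
    (hj : 6 * r ≤ j) (hy : ‖y - z‖ ≤ r) (bz : closedBall z (4 * r) ⊆ O)
    (by' : closedBall y (6 * r) ⊆ O)
    (dz : ∀ σ ρ, 0 < σ → σ ≤ ρ → ρ ≤ j → th m μ z ρ - th m μ z σ ≤ κ)
    (dy : ∀ σ ρ, 0 < σ → σ ≤ ρ → ρ ≤ j → th m μ y ρ - th m μ y σ ≤ κ)
    (hQ : e * r ^ m ≤ μ.real ({y | P y = Q} ∩ ball z (2 * r))) :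
    ‖(y - z) - Q (y - z)‖ ≤ a * r := by
  have k0 : 0 ≤ κ := by
    rw [hκ]
    positivity
  have h1 := h.rem (by positivity) bz fun σ s0 s1 => dz σ _ s0 s1 (by linarith)
  have h2 := h.rem (by positivity) by' fun σ s0 s1 => dy σ _ s0 s1 hj
  rw [show 4 * r / 2 = 2 * r by ring] at h1
  rw [show 6 * r / 2 = 3 * r by ring] at h2
  have e1 : κ * (6 * r) ^ (m + 2) = κ * 6 ^ (m + 2) * r ^ (m + 2) := by
    rw [mul_pow, mul_assoc]
  have e2 : κ * (4 * r) ^ (m + 2) ≤ κ * (6 * r) ^ (m + 2) := by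
    gcongr
    norm_num
  have h3 := h.cone_dir hr he hy ((h1.trans e2).trans e1.le) (h2.trans e1.le) hQ
  refine (sq_le_sq₀ (norm_nonneg _) (by positivity)).1 (h3.trans (le_of_eq ?_))
  rw [hκ]
  field_simp

theorem IntVarifold.null_loc (V : IntVarifold m N U) (hm : 1 ≤ m) (hV : V.Stationary)
    {F : Set (Submodule ℝ (Sp N))} (hF : F.Finite) (hT : ∀ᵐ x ∂V.μ, V.T x ∈ F)
    {x₀ : Sp N} {R : ℝ} (hR : 0 < R) (hB : closedBall x₀ (4 * R) ⊆ U) {s : ℝ}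
    (hs : ((m - 1 : ℕ) : ℝ) < s) :
    μH[s] {p | p ∈ V.μ.support ∩ ball x₀ (R / 2) ∧ ¬V.FlatRegular p} = 0 := by
  classical
  have h := V.loc hm hV hB
  have := h.fin
  obtain ⟨Λ, hΛ, hU⟩ := h.upper (x₀ := x₀) hR (closedBall_subset_ball (by linarith))
  obtain ⟨ε, hε, hE⟩ := V.eps_flat hm hV hF hT hB hΛ
  obtain ⟨τ, hτ, hN⟩ := null_of_near (N := N) (m - 1) hs
  obtain ⟨C, hC, hL⟩ := inf_dist_fin hF
  obtain ⟨G, hG⟩ : ∃ G : Finset (Submodule ℝ (Sp N)), ∀ S, S ∈ G ↔ S ∈ F ∧ Module.finrank ℝ S = m :=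
    ⟨hF.toFinset.filter fun S => Module.finrank ℝ S = m, fun S => by simp⟩
  have hc : ∀ᵐ y ∂V.μ.restrict (ball x₀ (4 * R)),
      ∃ S ∈ G, y ∈ {y | (V.T y).starProjection = S.starProjection} :=
    (ae_restrict_of_ae hT).mono fun y hy => ⟨V.T y, (hG _).2 ⟨hy, V.dim y⟩, rfl⟩
  rcases G.eq_empty_or_nonempty with rfl | hne
  · refine measure_mono_null (fun p hp => ?_) measure_empty
    have a1 : V.μ (ball x₀ (4 * R)) = 0 := by
      rw [← Measure.restrict_eq_zero, ← ae_eq_bot, ← eventually_false_iff_eq_bot]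
      exact hc.mono fun y hy => by simp at hy
    have a2 := (Measure.mem_support_iff_forall p).1 hp.1.1 _
      (isOpen_ball.mem_nhds (ball_subset_ball (show R / 2 ≤ 4 * R by linarith) hp.1.2))
    exact a2.ne' a1
  have k0 : (0 : ℝ) < G.card := by exact_mod_cast hne.card_pos
  obtain ⟨κ, hκ⟩ : ∃ κ : ℝ, κ = ε / G.card * (τ / (2 * C)) ^ 2 / (4 * 6 ^ (m + 2)) := ⟨_, rfl⟩
  have κ0 : 0 < κ := by
    rw [hκ]
    positivity
  refine measure_mono_null (t := ⋃ j : ℕ, {p | (p ∈ V.μ.support ∩ ball x₀ (R / 2) ∧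
    ¬V.FlatRegular p) ∧ ∀ σ ρ : ℝ, 0 < σ → σ ≤ ρ → ρ ≤ 1 / (j + 1) →
      th m (V.μ.restrict (ball x₀ (4 * R))) p ρ - th m (V.μ.restrict (ball x₀ (4 * R))) p σ ≤ κ})
    (fun p hp => ?_) (measure_iUnion_null fun j => ?_)
  · obtain ⟨r, r0, hr⟩ := h.drop (ball_subset_ball (show R / 2 ≤ 4 * R by linarith) hp.1.2) κ0
    obtain ⟨j, hj⟩ := exists_nat_one_div_lt r0
    exact mem_iUnion.2 ⟨j, hp, fun σ ρ a1 a2 a3 => hr σ ρ a1 a2 (a3.trans hj.le)⟩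
  refine hN _ (min (R / 12) (1 / (j + 1) / 6)) (by positivity) fun z hz r r0 r1 => ?_
  have r2 : r ≤ R / 12 := r1.trans (min_le_left _ _)
  have r3 : r ≤ 1 / (j + 1) / 6 := r1.trans (min_le_right _ _)
  have bb : ∀ p ∈ ball x₀ (R / 2), ∀ t, t ≤ 6 * r → closedBall p t ⊆ ball x₀ (4 * R) :=
    fun p hp t ht => closedBall_subset_ball' (by linarith [mem_ball.1 hp])
  obtain ⟨A, hA, B, hB', hAB, mA, mB⟩ := two_max hne (B := ball z (2 * r)) (e := ε * r ^ m)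
    (by positivity) hc fun S hS => not_le.1 fun k => hz.1.2 (hE S ((hG S).1 hS).1 ((hG S).1 hS).2
      z hz.1.1.1 r r0 (bb z hz.1.1.2 _ (by linarith))
      (fun p hp t t0 t1 => hU p (ball_subset_ball' (by linarith [mem_ball.1 hz.1.1.2]) hp) t t0
        (by linarith)) k)
  refine ⟨A ⊓ B, finrank_inf ((hG A).1 hA).2 ((hG B).1 hB').2 hAB, fun y hy => ?_⟩
  obtain ⟨w, hw, hw'⟩ := hL A ((hG A).1 hA).1 B ((hG B).1 hB').1 (y - z)
  have key : ∀ S : Submodule ℝ (Sp N), ε * r ^ m / G.card ≤ (V.μ.restrict (ball x₀ (4 * R))).real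
      ({y | (V.T y).starProjection = S.starProjection} ∩ ball z (2 * r)) →
      ‖(y - z) - S.starProjection (y - z)‖ ≤ τ / (2 * C) * r := fun S hS =>
    h.near_BMain r0 (by positivity) (by positivity) hκ (j := 1 / (j + 1)) (by linarith)
      (mem_closedBall_iff_norm.1 hy.2) (bb z hz.1.1.2 _ (by linarith)) (bb y hy.1.1.1.2 _ le_rfl)
      hz.2 hy.1.2 ((le_of_eq (by ring)).trans hS)
  refine ⟨w, hw, hw'.trans ((mul_le_mul_of_nonneg_left (add_le_add (key A mA) (key B mB))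
    hC.le).trans (le_of_eq ?_))⟩
  field_simp
  ring

theorem IntVarifold.dim_le (V : IntVarifold m N U) (hm : 1 ≤ m) (hU : IsOpen U)
    (hV : V.Stationary) {F : Set (Submodule ℝ (Sp N))} (hF : F.Finite)
    (hT : ∀ᵐ x ∂V.μ, V.T x ∈ F) :
    dimH {p | p ∈ V.μ.support ∩ U ∧ ¬V.FlatRegular p} ≤ (m : ℝ≥0∞) - 1 := by
  have h1 : ∀ x, ∃ R : ℝ, x ∈ U → 0 < R ∧ closedBall x (4 * R) ⊆ U := fun x => by
    by_cases hx : x ∈ U
    · obtain ⟨R, h2, h3⟩ := nhds_basis_closedBall.mem_iff.1 (hU.mem_nhds hx)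
      exact ⟨R / 4, fun _ => ⟨by positivity, by rwa [mul_div_cancel₀ _ (by norm_num)]⟩⟩
    · exact ⟨0, fun h => (hx h).elim⟩
  choose R hR using h1
  obtain ⟨t, t1, t2, t3⟩ := TopologicalSpace.countable_cover_nhdsWithin (s := U)
    (f := fun x => ball x (R x / 2)) fun x hx =>
      mem_nhdsWithin_of_mem_nhds (ball_mem_nhds x (half_pos (hR x hx).1))
  refine dimH_le fun d hd => ?_
  by_contra hlt
  have e : ((m - 1 : ℕ) : ℝ≥0∞) = (m : ℝ≥0∞) - 1 := by simp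
  rw [← e, not_le] at hlt
  have hs : ((m - 1 : ℕ) : ℝ) < (d : ℝ) := by exact_mod_cast hlt
  have h0 : μH[d] {p | p ∈ V.μ.support ∩ U ∧ ¬V.FlatRegular p} = 0 := by
    refine measure_mono_null (t := ⋃ x ∈ t,
      {p | p ∈ V.μ.support ∩ ball x (R x / 2) ∧ ¬V.FlatRegular p}) (fun p hp => ?_)
      ((measure_biUnion_null_iff t2).2 fun x hx => ?_)
    · obtain ⟨x, hx, h2⟩ := mem_iUnion₂.1 (t3 hp.1.2)
      exact mem_iUnion₂.2 ⟨x, hx, ⟨hp.1.1, h2⟩, hp.2⟩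
    exact V.null_loc hm hV hF hT (hR x (t1 hx)).1 (hR x (t1 hx)).2 hs
  exact ENNReal.zero_ne_top (h0.symm.trans hd)

end Vale.Agent.P214
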