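import Vale.Agent.P214.B.Decay
import Vale.Agent.P214.B.Lin

/-! P214 B/Reg (owner helper61). Helper names end with `_Reg`.
The regularity lemma. `flat_of_lev`: copy the end of `IntVarifold.ae_flat` (P214/Main.lean), `mem_Main`, `Loc.tilt_zero`.
`eps_flat`: `Loc.eps_lev` with `gap_of_finite` for the finitely many `ν = Sᗮ.starProjection (single i 1)`, `S ∈ F`, `i : Fin N`; a common `ε`
(`Filter.eventually_all_finite` in `𝓝[>] 0`, or a minimum); `tilt ∩ ball ⊆ ball \ {P y = S.starProjection}`.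
-/

namespace Vale.Agent.P214

open MeasureTheory Set Filter Topology Metric
open scoped ENNReal RealInnerProductSpace

variable {m N : ℕ} {μ : Measure (Sp N)} {P : Sp N → Sp N →L[ℝ] Sp N} {O : Set (Sp N)} {c : ℝ}

variable {U : Set (Sp N)}

theorem IntVarifold.flat_of_lev (V : IntVarifold m N U) (hm : 1 ≤ m) (hV : V.Stationary)
    {x₀ : Sp N} {R : ℝ} (hB : closedBall x₀ R ⊆ U) {S : Submodule ℝ (Sp N)}
    (hS : Module.finrank ℝ S = m) {x : Sp N} (hx : x ∈ V.μ.support) (hx' : x ∈ ball x₀ R)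
    (h : ∀ i : Fin N, ∃ ρ : ℝ, 0 < ρ ∧ ball x ρ ⊆ ball x₀ R ∧ ∀ᵐ y ∂V.μ.restrict (ball x₀ R),
      y ∈ ball x ρ → ⟪Sᗮ.starProjection (EuclideanSpace.single i 1), y⟫ =
        ⟪Sᗮ.starProjection (EuclideanSpace.single i 1), x⟫) : V.FlatRegular x := by
  have hL := V.loc hm hV hB
  choose r r0 r1 r2 using h
  have e1 : ∀ᶠ ρ in 𝓝[>] (0 : ℝ), ∀ i, ρ < r i / 4 := eventually_all.2 fun i =>
    nhdsWithin_le_nhds (gt_mem_nhds (div_pos (r0 i) four_pos))
  have e2 : ∀ᶠ ρ in 𝓝[>] (0 : ℝ), closedBall x ρ ⊆ ball x₀ R :=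
    nhdsWithin_le_nhds (eventually_closedBall_subset (isOpen_ball.mem_nhds hx'))
  obtain ⟨ρ, ⟨a1, a2⟩, a3⟩ := ((e1.and e2).and self_mem_nhdsWithin).exists
  refine V.flat hm hV hB hS hx a3 (ball_subset_closedBall.trans a2) ?_
  filter_upwards [ae_all_iff.2 r2, ae_all_iff.2 fun i => hL.tilt_zero (r0 i) (r1 i) (r2 i)]
    with y b1 b2 hy
  refine ⟨mem_Main fun i => ?_, Submodule.eq_of_le_of_finrank_eq
    (fun w hw => mem_Main fun i => ?_) ((V.dim y).trans hS.symm)⟩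
  · rw [inner_sub_right, b1 i (ball_subset_ball (by linarith [a1 i, r0 i]) hy), sub_self]
  · exact Submodule.inner_left_of_mem_orthogonal hw
      ((Submodule.starProjection_apply_eq_zero_iff _).1 (b2 i (ball_subset_ball (a1 i).le hy)))

theorem IntVarifold.eps_flat (V : IntVarifold m N U) (hm : 1 ≤ m) (hV : V.Stationary)
    {F : Set (Submodule ℝ (Sp N))} (hF : F.Finite) (hT : ∀ᵐ x ∂V.μ, V.T x ∈ F)
    {x₀ : Sp N} {R : ℝ} (hB : closedBall x₀ R ⊆ U) {Λ : ℝ} (hΛ : 0 < Λ) :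
    ∃ ε : ℝ, 0 < ε ∧ ∀ S ∈ F, Module.finrank ℝ S = m → ∀ x ∈ V.μ.support, ∀ r : ℝ, 0 < r →
      closedBall x (3 * r) ⊆ ball x₀ R → Up m (V.μ.restrict (ball x₀ R)) (ball x (2 * r)) r Λ →
      (V.μ.restrict (ball x₀ R)).real
        (ball x (2 * r) \ {y | (V.T y).starProjection = S.starProjection}) ≤ ε * r ^ m →
      V.FlatRegular x := by
  have hL := V.loc hm hV hB
  have := hL.fin
  have hT' := ae_restrict_of_ae (s := ball x₀ R) hT
  have h1 := fun ν : Sp N => (gap_of_finite hF ν).elim fun δ h =>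
    hL.eps_lev (ν := ν) (δ := δ) ⟨h.1, hT'.mono fun y hy => h.2 _ hy⟩ hΛ
  choose e e0 e1 using h1
  have h2 : ∀ᶠ ε in 𝓝[>] (0 : ℝ), ∀ S ∈ F, ∀ i : Fin N,
      ε < e (Sᗮ.starProjection (EuclideanSpace.single i 1)) :=
    (eventually_all_finite hF).2 fun S _ => eventually_all.2 fun i =>
      nhdsWithin_le_nhds (gt_mem_nhds (e0 _))
  obtain ⟨ε, a1, a2⟩ := (h2.and self_mem_nhdsWithin).exists
  refine ⟨ε, a2, fun S hSF hS x hx r hr hO hU hε => V.flat_of_lev hm hV hB hS hx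
    (hO (mem_closedBall_self (by positivity))) fun i => e1 _ x r hr hO hU ?_⟩
  refine le_trans (le_trans (measureReal_mono fun y hy => ?_) hε)
    (mul_le_mul_of_nonneg_right (a1 S hSF i).le (by positivity))
  refine ⟨hy.2, fun h3 => hy.1 ?_⟩
  have h4 : (V.T y).starProjection = S.starProjection := h3
  change (V.T y).starProjection _ = 0
  rw [h4]
  exact (Submodule.starProjection_apply_eq_zero_iff _).2 (Submodule.starProjection_apply_mem _ _)

end Vale.Agent.P214
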