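import Vale.Agent.P214.B.Defs

/-! P214 B/Rem0 (owner helper61). Helper names end with `_Rem0`.
`der_J`: copy `Loc.der_Mono` (P214/Mono.lean), with measurability and the bound as hypotheses.
`nrm_meas`: `isBoundedBilinearMap_apply.continuous.comp_aestronglyMeasurable`, `norm_sub_sq_real`, `Loc.inner_P`.
`eq_I`: `h.s2` for `g = bump x t` (`bump_fderiv`, `Loc.inner_P`), `integral_add`, integrability from `der_J` and `Loc.int_ap`.
-/

namespace Vale.Agent.P214

open MeasureTheory Set Filter Topology Metric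
open scoped ENNReal RealInnerProductSpace

variable {m N : ℕ} {μ : Measure (Sp N)} {P : Sp N → Sp N →L[ℝ] Sp N} {O : Set (Sp N)} {c : ℝ}

theorem int_Rem0 [IsFiniteMeasure μ] {f g : Sp N → ℝ} (hf : AEStronglyMeasurable f μ) {x : Sp N}
    {r C : ℝ} (hr : 0 ≤ r) (hC : ∀ y ∈ closedBall x r, |f y| ≤ C) (hg : Continuous g)
    (h0 : ∀ y ∉ closedBall x r, g y = 0) : Integrable (fun y => f y * g y) μ := by
  obtain ⟨M, hM⟩ := (isCompact_closedBall x r).exists_bound_of_continuousOn hg.continuousOn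
  have hM0 : 0 ≤ M := (norm_nonneg _).trans (hM x (mem_closedBall_self hr))
  have hC0 : 0 ≤ C := (abs_nonneg _).trans (hC x (mem_closedBall_self hr))
  refine Integrable.of_bound (hf.mul hg.aestronglyMeasurable) (C * M)
    (Eventually.of_forall fun y => ?_)
  by_cases hy : y ∈ closedBall x r
  · rw [norm_mul]
    exact mul_le_mul (hC y hy) (hM y hy) (norm_nonneg _) hC0
  · rw [h0 y hy, mul_zero, norm_zero]
    positivity

theorem Loc.der_J (h : Loc m μ P O c) {f : Sp N → ℝ} (hf : AEStronglyMeasurable f μ) (x : Sp N)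
    {t C : ℝ} (ht : 0 < t) (hC : ∀ y ∈ closedBall x (2 * t), |f y| ≤ C) :
    Integrable (fun y => f y * bump x t y) μ ∧
    Integrable (fun y => f y * (deriv gam (‖y - x‖ ^ 2 / t ^ 2) * (-2 * ‖y - x‖ ^ 2 / t ^ 3))) μ ∧
    Integrable (fun y => f y * deriv gam (‖y - x‖ ^ 2 / t ^ 2)) μ ∧
    HasDerivAt (fun s => ∫ y, f y * bump x s y ∂μ)
      (∫ y, f y * (deriv gam (‖y - x‖ ^ 2 / t ^ 2) * (-2 * ‖y - x‖ ^ 2 / t ^ 3)) ∂μ) t := by
  have := h.fin
  obtain ⟨B, hB, hg⟩ := gam_deriv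
  have hM0 : 0 ≤ C := (abs_nonneg _).trans (hC x (mem_closedBall_self (by linarith)))
  have hc : Continuous (deriv gam) := gam_contDiff.continuous_deriv le_rfl
  have hz : ∀ s ∈ Ioo (t / 2) (2 * t), ∀ y ∉ closedBall x (2 * t),
      deriv gam (‖y - x‖ ^ 2 / s ^ 2) = 0 := fun s hs y hy => by
    have hs0 : 0 < s := lt_trans (by linarith) hs.1
    have h1 : 2 * t < ‖y - x‖ := not_le.1 fun h => hy (mem_closedBall_iff_norm.2 h)
    refine (hg _).2.2 ?_
    rw [one_lt_div (by positivity)]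
    exact pow_lt_pow_left₀ (hs.2.trans h1) hs0.le two_ne_zero
  have i1 : Integrable (fun y => f y * bump x t y) μ :=
    int_Rem0 hf (by linarith) hC (bump_contDiff x t).continuous fun y hy =>
      bump_zero ht fun h' => hy (closedBall_subset_closedBall (by linarith)
        (ball_subset_closedBall h'))
  have i2 : Integrable (fun y => f y * deriv gam (‖y - x‖ ^ 2 / t ^ 2)) μ :=
    int_Rem0 hf (by linarith) hC (by fun_prop) (hz t ⟨by linarith, by linarith⟩)
  have key := hasDerivAt_integral_of_dominated_loc_of_deriv_le (μ := μ) (s := Ioo (t / 2) (2 * t))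
    (F := fun s y => f y * bump x s y) (x₀ := t)
    (F' := fun s y => f y * (deriv gam (‖y - x‖ ^ 2 / s ^ 2) * (-2 * ‖y - x‖ ^ 2 / s ^ 3)))
    (bound := fun _ => C * (B * (2 * (2 * t) ^ 2 / (t / 2) ^ 3)))
    (Ioo_mem_nhds (by linarith) (by linarith))
    (Eventually.of_forall fun s => hf.mul (bump_contDiff x s).continuous.aestronglyMeasurable) i1
    (hf.mul (Continuous.aestronglyMeasurable (by fun_prop)))
    (Eventually.of_forall fun y s hs => by
      by_cases hy : y ∈ closedBall x (2 * t)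
      · have hs0 : 0 < s := lt_trans (by linarith) hs.1
        rw [norm_mul, norm_mul]
        have h1 : ‖y - x‖ ≤ 2 * t := mem_closedBall_iff_norm.1 hy
        have h2 : ‖deriv gam (‖y - x‖ ^ 2 / s ^ 2)‖ ≤ B :=
          abs_le.2 ⟨(hg _).1, (hg _).2.1.trans hB.le⟩
        have h3 : ‖-2 * ‖y - x‖ ^ 2 / s ^ 3‖ ≤ 2 * (2 * t) ^ 2 / (t / 2) ^ 3 := by
          rw [neg_mul, neg_div, norm_neg, Real.norm_of_nonneg (by positivity)]
          have := hs.1.le
          gcongr
        exact mul_le_mul (hC y hy) (mul_le_mul h2 h3 (norm_nonneg _) hB.le) (by positivity) hM0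
      · rw [hz s hs y hy, zero_mul, mul_zero, norm_zero]
        positivity)
    (integrable_const _) (Eventually.of_forall fun y s hs => by
      have hs0 : s ≠ 0 := (lt_trans (by linarith) hs.1).ne'
      have h1 : HasDerivAt (fun s : ℝ => ‖y - x‖ ^ 2 / s ^ 2) (-2 * ‖y - x‖ ^ 2 / s ^ 3) s := by
        refine ((hasDerivAt_const s (‖y - x‖ ^ 2)).div (hasDerivAt_pow 2 s)
          (pow_ne_zero 2 hs0)).congr_deriv ?_
        simp only [Nat.cast_ofNat, Nat.add_one_sub_one, pow_one]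
        field_simp
        ring
      exact (((gam_contDiff.differentiable one_ne_zero _).hasDerivAt.comp s h1).const_mul
        (f y) :))
  exact ⟨i1, key.1, i2, key.2⟩

theorem Loc.nrm_meas (h : Loc m μ P O c) (x : Sp N) : AEStronglyMeasurable (nrm P x) μ ∧
    ∀ y, 0 ≤ nrm P x y ∧ nrm P x y ≤ ‖y - x‖ ^ 2 ∧
      nrm P x y = ‖y - x‖ ^ 2 - ‖P y (y - x)‖ ^ 2 := by
  have h1 : AEStronglyMeasurable (fun y : Sp N => y - x) μ :=
    Continuous.aestronglyMeasurable (by fun_prop)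
  refine ⟨(h1.sub (ap_Prj h.meas h1)).norm.pow 2, fun y => ?_⟩
  have h2 : nrm P x y = ‖y - x‖ ^ 2 - ‖P y (y - x)‖ ^ 2 := by
    rw [nrm, norm_sub_sq_real, h.inner_P]
    ring
  refine ⟨sq_nonneg _, ?_, h2⟩
  rw [h2]
  exact sub_le_self _ (sq_nonneg _)

theorem Loc.eq_I (h : Loc m μ P O c) {x : Sp N} {t : ℝ} (ht : 0 < t) (hB : closedBall x t ⊆ O) :
    HasDerivAt (th m μ x)
      (-2 / t ^ (m + 3) * ∫ y, nrm P x y * deriv gam (‖y - x‖ ^ 2 / t ^ 2) ∂μ) t := by
  have := h.fin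
  obtain ⟨k, rfl⟩ : ∃ k, m = k + 1 := ⟨m - 1, by have := h.mpos; omega⟩
  obtain ⟨m1, m2⟩ := h.nrm_meas x
  have g1 := bump_contDiff x t
  have g2 := (bump_supp x ht).1
  have i1 : Integrable (bump x t) μ := g1.continuous.integrable_of_hasCompactSupport g2
  have i2 := h.int_ap (w := fun y => y - x) (g1.continuous_fderiv one_ne_zero) (g2.fderiv ℝ)
    (by fun_prop)
  have i3 := (h.der_J m1 x ht (C := (2 * t) ^ 2) fun y hy => by
    rw [abs_of_nonneg (m2 y).1]
    exact (m2 y).2.1.trans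
      (pow_le_pow_left₀ (norm_nonneg _) (mem_closedBall_iff_norm.1 hy) 2)).2.2.1
  have e0 := h.s2 _ g1 g2 ((bump_supp x ht).2.trans hB) x
  rw [integral_add (i1.const_mul _) i2, integral_const_mul] at e0
  have d0 := h.der_I (f := fun _ => 1) continuous_const x ht
  simp only [one_mul] at d0
  have e1 : ∫ y, deriv gam (‖y - x‖ ^ 2 / t ^ 2) * (-2 * ‖y - x‖ ^ 2 / t ^ 3) ∂μ =
      -2 / t ^ 3 * ∫ y, nrm P x y * deriv gam (‖y - x‖ ^ 2 / t ^ 2) ∂μ -
        t⁻¹ * ∫ y, fderiv ℝ (bump x t) y (P y (y - x)) ∂μ := by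
    rw [← integral_const_mul, ← integral_const_mul,
      ← integral_sub (i3.const_mul _) (i2.const_mul _)]
    refine integral_congr_ae (Eventually.of_forall fun y => ?_)
    simp only [bump_fderiv, h.inner_P, (m2 y).2.2]
    field_simp
    ring
  refine (((hasDerivAt_pow (k + 1) t).fun_inv (pow_ne_zero _ ht.ne')).fun_mul d0).congr_deriv ?_
  rw [e1, Nat.add_sub_cancel, eq_neg_of_add_eq_zero_right e0]
  field_simp
  ring

end Vale.Agent.P214
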