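import Vale.Agent.P214.B.Defs

/-! P214 B/Split2 (owner helper61). Helper names end with `_Split2`.
Splitting with atoms. Induction on `n`. If `κ (Ioo s t) ≤ a` take `H = ∅`. Otherwise `s < t`; `u = sSup {u ∈ Icc s t | κ.real (Ioo s u) ≤ a}`;
`κ.real (Ioo s u) ≤ a` (increasing union `Ioo s (u - 1 / (j + 1))`, `tendsto_measure_iUnion_atTop`, `exists_lt_of_lt_csSup`), so `u < t`;
`a ≤ κ.real (Ioc s u)` (decreasing intersection of `Ioo s (u + (t - u) / (j + 1))`, `tendsto_measure_iInter_atTop`);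
`Ioo s t = Ioc s u ∪ Ioo u t` disjointly; `H = insert u H'`, `Ioo s t \ H ⊆ Ioo s u ∪ (Ioo u t \ H')`.
-/

namespace Vale.Agent.P214

open MeasureTheory Set Filter Topology Metric
open scoped ENNReal RealInnerProductSpace

variable {m N : ℕ} {μ : Measure (Sp N)} {P : Sp N → Sp N →L[ℝ] Sp N} {O : Set (Sp N)} {c : ℝ}

theorem cut_Split2 {κ : Measure ℝ} [IsFiniteMeasure κ] {a s t : ℝ} (ha : 0 < a)
    (h : a < κ.real (Ioo s t)) :
    ∃ u, s ≤ u ∧ u < t ∧ κ.real (Ioo s u) ≤ a ∧ a ≤ κ.real (Ioc s u) := by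
  obtain ⟨S, hS⟩ : ∃ S : Set ℝ, S = {u | κ.real (Ioo s u) ≤ a} := ⟨_, rfl⟩
  have mem : ∀ u, u ∈ S ↔ κ.real (Ioo s u) ≤ a := fun u => by rw [hS]; rfl
  have hs : s ∈ S := by
    rw [mem, Ioo_self, measureReal_empty]
    exact ha.le
  have hlt : ∀ u ∈ S, u < t := fun u hu => not_le.mp fun htu =>
    absurd ((measureReal_mono (Ioo_subset_Ioo_right htu)).trans ((mem u).mp hu)) (not_le.mpr h)
  have hbd : BddAbove S := ⟨t, fun u hu => (hlt u hu).le⟩
  have hpos : ∀ j : ℕ, (0 : ℝ) < 1 / ((j : ℝ) + 1) := fun j => Nat.one_div_pos_of_nat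
  have hanti : ∀ i j : ℕ, i ≤ j → (1 : ℝ) / ((j : ℝ) + 1) ≤ 1 / ((i : ℝ) + 1) :=
    fun i j hij => Nat.one_div_le_one_div hij
  have h1 : κ.real (Ioo s (sSup S)) ≤ a := by
    have hm : Monotone fun j : ℕ => Ioo s (sSup S - 1 / ((j : ℝ) + 1)) := fun i j hij =>
      Ioo_subset_Ioo_right (by linarith [hanti i j hij])
    have hU : ⋃ j : ℕ, Ioo s (sSup S - 1 / ((j : ℝ) + 1)) = Ioo s (sSup S) := by
      ext x
      simp only [mem_iUnion, mem_Ioo]
      refine ⟨fun ⟨j, h1, h2⟩ => ⟨h1, by linarith [hpos j]⟩, fun ⟨h1, h2⟩ => ?_⟩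
      obtain ⟨j, hj⟩ := exists_nat_one_div_lt (sub_pos.mpr h2)
      exact ⟨j, h1, by linarith⟩
    have ht := tendsto_measure_iUnion_atTop (μ := κ) hm
    rw [hU] at ht
    refine le_of_tendsto' ((ENNReal.tendsto_toReal (measure_ne_top _ _)).comp ht) fun j => ?_
    obtain ⟨v, hv, hv'⟩ := exists_lt_of_lt_csSup ⟨s, hs⟩
      (show sSup S - 1 / ((j : ℝ) + 1) < sSup S by linarith [hpos j])
    exact (measureReal_mono (Ioo_subset_Ioo_right hv'.le)).trans ((mem v).mp hv)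
  refine ⟨sSup S, le_csSup hbd hs, hlt _ ((mem _).mpr h1), h1, ?_⟩
  have hm : Antitone fun j : ℕ => Ioo s (sSup S + 1 / ((j : ℝ) + 1)) := fun i j hij =>
    Ioo_subset_Ioo_right (by linarith [hanti i j hij])
  have hI : ⋂ j : ℕ, Ioo s (sSup S + 1 / ((j : ℝ) + 1)) = Ioc s (sSup S) := by
    ext x
    simp only [mem_iInter, mem_Ioo, mem_Ioc]
    refine ⟨fun hx => ⟨(hx 0).1, not_lt.mp fun h2 => ?_⟩,
      fun hx j => ⟨hx.1, by linarith [hpos j, hx.2]⟩⟩
    obtain ⟨j, hj⟩ := exists_nat_one_div_lt (sub_pos.mpr h2)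
    linarith [(hx j).2]
  have ht := tendsto_measure_iInter_atTop (μ := κ)
    (fun j : ℕ => (measurableSet_Ioo (a := s) (b := sSup S + 1 / ((j : ℝ) + 1))).nullMeasurableSet)
    hm ⟨0, measure_ne_top _ _⟩
  rw [hI] at ht
  refine ge_of_tendsto' ((ENNReal.tendsto_toReal (measure_ne_top _ _)).comp ht) fun j => ?_
  refine (not_le.mp fun hc => ?_).le
  have := le_csSup hbd ((mem _).mpr hc)
  linarith [hpos j]

theorem split2 {κ ν : Measure ℝ} [IsFiniteMeasure κ] [IsFiniteMeasure ν] {a b : ℝ}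
    (ha : 0 < a) (hb : 0 ≤ b) (h : ∀ s t, κ.real (Ioo s t) ≤ a → ν.real (Ioo s t) ≤ b) (n : ℕ) :
    ∀ s t, κ.real (Ioo s t) ≤ (n + 1) * a →
      ∃ H : Finset ℝ, H.card ≤ n ∧ ν.real (Ioo s t \ (H : Set ℝ)) ≤ (n + 1) * b := by
  induction n with
  | zero =>
    intro s t hst
    refine ⟨∅, le_rfl, ?_⟩
    rw [Nat.cast_zero, zero_add, one_mul] at hst
    rw [Nat.cast_zero, zero_add, one_mul]
    exact (measureReal_mono Set.sdiff_subset).trans (h s t hst)
  | succ n ih =>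
    intro s t hst
    have hn : (0 : ℝ) ≤ n := Nat.cast_nonneg n
    push_cast at hst ⊢
    rcases le_or_gt (κ.real (Ioo s t)) a with h1 | h1
    · refine ⟨∅, Nat.zero_le _, ?_⟩
      exact (measureReal_mono Set.sdiff_subset).trans ((h s t h1).trans (by nlinarith))
    · obtain ⟨u, hsu, hut, h2, h3⟩ := cut_Split2 ha h1
      have h4 : κ.real (Ioo s t) = κ.real (Ioc s u) + κ.real (Ioo u t) := by
        rw [← Ioc_union_Ioo_eq_Ioo hsu hut]
        exact measureReal_union (Set.disjoint_left.mpr fun x hx hx' => absurd hx.2 (not_le.mpr hx'.1))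
          measurableSet_Ioo
      obtain ⟨H, hH, hν⟩ := ih u t (by linarith)
      refine ⟨insert u H, (Finset.card_insert_le _ _).trans (by omega), ?_⟩
      have hsub : Ioo s t \ ((insert u H : Finset ℝ) : Set ℝ) ⊆ Ioo s u ∪ (Ioo u t \ (H : Set ℝ)) := by
        rintro x ⟨hx, hx'⟩
        rw [Finset.coe_insert, mem_insert_iff, not_or] at hx'
        rcases lt_or_gt_of_ne hx'.1 with h5 | h5
        · exact Or.inl ⟨hx.1, h5⟩
        · exact Or.inr ⟨⟨h5, hx.2⟩, hx'.2⟩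
      refine (measureReal_mono hsub).trans ((measureReal_union_le _ _).trans ?_)
      linarith [h s u h2]

end Vale.Agent.P214
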