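import Vale.Agent.P214.B.Levels

/-! P214 B/Step (owner helper61). Helper names end with `_Step`.
One step decay of the tilted mass. `flux2`: as `Loc.flux` in P214/Flux.lean, without the gap.
`step`: `n`, `H` from `Loc.levels`, `φ` from `exists_cut` with `ρ' = s / 8`, `ρ = s / 4`, `w = 2 t (‖ν‖ + 1)`,
`a τ u = arctan ((u - τ) / w)` (`Real.contDiff_arctan`, `Real.hasDerivAt_arctan`, `|arctan| ≤ 2`), derivative `≥ 0` and `≥ 1 / (2 w)`
for `|u - τ| ≤ w`. A.e. (`Measure.support_mem_ae`, gap, `Loc.near`)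
`indicator (tilt ∩ ball x (s / 8)) 1 ≤ 2 w / δ ^ 2 * ∑ τ ∈ H, φ * deriv (a τ) * ‖P ν‖ ^ 2`; integrate (`Loc.int_nP`, `Loc.null_bad`,
`integral_indicator₀` or `setIntegral_mono_ae_restrict`, `integral_finsetSum`); `C = 2 * 2 (‖ν‖ + 1) / δ ^ 2 * (n + 1) * 2 * 8 L (‖ν‖ + 1)`.
-/

namespace Vale.Agent.P214

open MeasureTheory Set Filter Topology Metric
open scoped ENNReal RealInnerProductSpace

variable {m N : ℕ} {μ : Measure (Sp N)} {P : Sp N → Sp N →L[ℝ] Sp N} {O : Set (Sp N)} {c : ℝ}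

theorem Loc.flux2 (h : Loc m μ P O c) {ν : Sp N} {a : ℝ → ℝ} {M : ℝ} (ha : ContDiff ℝ 1 a)
    (a0 : ∀ t, |a t| ≤ M) {φ : Sp N → ℝ} {B : Set (Sp N)} {L : ℝ} (hφ : ContDiff ℝ 1 φ)
    (cs : HasCompactSupport φ) (hB : tsupport φ ⊆ B) (hO : B ⊆ O)
    (hL : ∀ y, ‖fderiv ℝ φ y‖ ≤ L) :
    ∫ y, φ y * deriv a ⟪ν, y⟫ * ‖P y ν‖ ^ 2 ∂μ ≤ M * L * ‖ν‖ * μ.real (tilt P ν ∩ B) := by
  have k := h.key_Flux ν ha hφ cs (hB.trans hO)
  have := h.fin
  have h5 := int_le (μ := μ) (f := fun y => a ⟪ν, y⟫ * fderiv ℝ φ y (P y ν))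
    (S := tilt P ν ∩ B) (L := M * L * ‖ν‖) (fun y hy => by
      by_cases h6 : y ∈ B
      · have h7 : P y ν = 0 := by_contra fun h7 => hy ⟨h7, h6⟩
        simp [h7]
      · simp [zero_Flux fun h' => h6 (hB h')]) fun y => by
      rw [abs_mul, mul_assoc]
      refine mul_le_mul (a0 _) ?_ (abs_nonneg _) ((abs_nonneg _).trans (a0 0))
      exact ((fderiv ℝ φ y).le_opNorm _).trans
        (mul_le_mul (hL y) (h.norm_P y ν) (norm_nonneg _) ((norm_nonneg _).trans (hL y)))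
  linarith [neg_abs_le (∫ y, a ⟪ν, y⟫ * fderiv ℝ φ y (P y ν) ∂μ)]

theorem cd_Step (τ w : ℝ) : ContDiff ℝ 1 fun u : ℝ => Real.arctan ((u - τ) / w) :=
  Real.contDiff_arctan.comp ((contDiff_id.sub contDiff_const).div_const w)

theorem abs_Step (u : ℝ) : |Real.arctan u| ≤ 2 := by
  have h1 := Real.arctan_lt_pi_div_two u
  have h2 := Real.neg_pi_div_two_lt_arctan u
  have h3 := Real.pi_le_four
  rw [abs_le]
  constructor <;> linarith

theorem der_Step (τ w u : ℝ) : deriv (fun u : ℝ => Real.arctan ((u - τ) / w)) u =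
    1 / (1 + ((u - τ) / w) ^ 2) * (1 / w) :=
  ((Real.hasDerivAt_arctan _).comp u (((hasDerivAt_id u).sub_const τ).div_const w)).deriv

theorem low_Step {τ w u : ℝ} (hw : 0 < w) (h : |u - τ| ≤ w) :
    1 / (2 * w) ≤ deriv (fun u : ℝ => Real.arctan ((u - τ) / w)) u := by
  rw [der_Step]
  have h1 : ((u - τ) / w) ^ 2 ≤ 1 := by
    rw [div_pow, div_le_one (by positivity), ← sq_abs]
    exact pow_le_pow_left₀ (abs_nonneg _) h 2
  have h2 : 1 / 2 ≤ 1 / (1 + ((u - τ) / w) ^ 2) :=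
    one_div_le_one_div_of_le (by positivity) (by linarith)
  calc 1 / (2 * w) = 1 / 2 * (1 / w) := by field_simp
    _ ≤ _ := mul_le_mul_of_nonneg_right h2 (by positivity)

theorem Loc.step (h : Loc m μ P O c) {ν : Sp N} {δ Λ : ℝ} (hg : GapAt μ P ν δ) (hΛ : 0 < Λ) :
    ∃ (n : ℕ) (C : ℝ), 0 < C ∧ ∀ (x : Sp N) (s t : ℝ), 0 < t → t ≤ s / 8 →
      closedBall x (2 * s) ⊆ O → Up m μ (ball x s) s Λ →
      (n + 1) * μ.real (tilt P ν ∩ ball x s) < c * t ^ m →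
      μ.real (tilt P ν ∩ ball x (s / 8)) ≤ C * t / s * μ.real (tilt P ν ∩ ball x s) := by
  obtain ⟨n, hn⟩ := h.levels hg hΛ
  obtain ⟨L, hL, hcut⟩ := exists_cut (N := N)
  have hδ := hg.1
  have := h.fin
  refine ⟨n, 4 * (‖ν‖ + 1) / δ ^ 2 * (n + 1) * (16 * L * (‖ν‖ + 1)), by positivity,
    fun x s t ht hts hO hU hsm => ?_⟩
  have hs : 0 < s := by linarith
  obtain ⟨H, hH, hH'⟩ := hn x s hs hO hU
  obtain ⟨φ, hφ, cs, hsup, φ0, φ1, φ2⟩ := hcut x (s / 8) (s / 4) (by positivity) (by linarith)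
  obtain ⟨w, hw⟩ : ∃ w, w = 2 * t * (‖ν‖ + 1) := ⟨_, rfl⟩
  have hw0 : 0 < w := by rw [hw]; positivity
  have hO1 : closedBall x s ⊆ O := (closedBall_subset_closedBall (by linarith)).trans hO
  have hint : ∀ τ : ℝ, Integrable (fun y => φ y *
      deriv (fun u : ℝ => Real.arctan ((u - τ) / w)) ⟪ν, y⟫ * ‖P y ν‖ ^ 2) μ := fun τ =>
    h.int_nP (a := fun y => φ y * deriv (fun u : ℝ => Real.arctan ((u - τ) / w)) ⟪ν, y⟫)
      (hφ.continuous.mul (cont_Flux (cd_Step τ w) ν)) cs.mul_right ν 2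
  have hfl : ∀ τ : ℝ, ∫ y, φ y * deriv (fun u : ℝ => Real.arctan ((u - τ) / w)) ⟪ν, y⟫ *
      ‖P y ν‖ ^ 2 ∂μ ≤ 2 * (L / (s / 4 - s / 8)) * ‖ν‖ * μ.real (tilt P ν ∩ ball x s) := fun τ =>
    h.flux2 (cd_Step τ w) (fun _ => abs_Step _) hφ cs
      (hsup.trans (ball_subset_ball (by linarith))) (ball_subset_closedBall.trans hO1) φ2
  have hnn : ∀ (τ : ℝ) (y : Sp N), 0 ≤ φ y *
      deriv (fun u : ℝ => Real.arctan ((u - τ) / w)) ⟪ν, y⟫ * ‖P y ν‖ ^ 2 := fun τ y => by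
    have := (φ0 y).1
    rw [der_Step]
    positivity
  have hS : NullMeasurableSet (tilt P ν ∩ ball x (s / 8)) μ :=
    (h.null_bad ν).compl.inter measurableSet_ball.nullMeasurableSet
  have e1 : μ.real (tilt P ν ∩ ball x (s / 8)) =
      ∫ y, (tilt P ν ∩ ball x (s / 8)).indicator (fun _ => (1 : ℝ)) y ∂μ := by
    rw [integral_indicator₀ hS]
    simp
  have e2 : ∫ y, (tilt P ν ∩ ball x (s / 8)).indicator (fun _ => (1 : ℝ)) y ∂μ ≤
      ∫ y, 2 * w / δ ^ 2 * ∑ τ ∈ H, φ y *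
        deriv (fun u : ℝ => Real.arctan ((u - τ) / w)) ⟪ν, y⟫ * ‖P y ν‖ ^ 2 ∂μ := by
    refine integral_mono_of_nonneg (Eventually.of_forall fun y => ?_)
      ((integrable_finsetSum H fun τ _ => hint τ).const_mul _) ?_
    · exact indicator_nonneg (fun _ _ => zero_le_one) y
    filter_upwards [hg.2, Measure.support_mem_ae (μ := μ)] with y hy hy'
    by_cases hyS : y ∈ tilt P ν ∩ ball x (s / 8)
    · rw [indicator_of_mem hyS]
      obtain ⟨τ, hτ, hτ'⟩ := h.near ht hts hO1 (hH'.trans_lt hsm) hy'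
        (ball_subset_ball (by linarith) hyS.2)
      have a1 : |⟪ν, y⟫ - τ| ≤ w := hτ'.trans (by rw [hw]; nlinarith)
      have a2 := low_Step hw0 a1
      have a3 : δ ^ 2 ≤ ‖P y ν‖ ^ 2 := pow_le_pow_left₀ hδ.le (hy.resolve_left hyS.1) 2
      have a4 : 1 / (2 * w) * δ ^ 2 ≤ φ y *
          deriv (fun u : ℝ => Real.arctan ((u - τ) / w)) ⟪ν, y⟫ * ‖P y ν‖ ^ 2 := by
        rw [φ1 y hyS.2, one_mul]
        exact mul_le_mul a2 a3 (by positivity) (le_trans (by positivity) a2)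
      have a5 := a4.trans (Finset.single_le_sum (f := fun τ => φ y *
          deriv (fun u : ℝ => Real.arctan ((u - τ) / w)) ⟪ν, y⟫ * ‖P y ν‖ ^ 2)
        (fun τ _ => hnn τ y) hτ)
      calc (1 : ℝ) = 2 * w / δ ^ 2 * (1 / (2 * w) * δ ^ 2) := by field_simp
        _ ≤ _ := mul_le_mul_of_nonneg_left a5 (by positivity)
    · rw [indicator_of_notMem hyS]
      exact mul_nonneg (by positivity) (Finset.sum_nonneg fun τ _ => hnn τ y)
  rw [integral_const_mul, integral_finsetSum H fun τ _ => hint τ] at e2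
  have e3 := Finset.sum_le_card_nsmul H _ _ fun τ _ => hfl τ
  rw [nsmul_eq_mul] at e3
  have hb : 0 ≤ μ.real (tilt P ν ∩ ball x s) := measureReal_nonneg
  have hc : (H.card : ℝ) ≤ n + 1 := by
    have : (H.card : ℝ) ≤ n := by exact_mod_cast hH
    linarith
  have hs8 : s / 4 - s / 8 = s / 8 := by ring
  rw [hs8] at e3
  rw [e1]
  calc _ ≤ _ := e2
    _ ≤ 2 * w / δ ^ 2 * (H.card * (2 * (L / (s / 8)) * ‖ν‖ * μ.real (tilt P ν ∩ ball x s))) :=
      mul_le_mul_of_nonneg_left e3 (by positivity)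
    _ ≤ 2 * w / δ ^ 2 * ((n + 1) * (2 * (L / (s / 8)) * (‖ν‖ + 1) *
        μ.real (tilt P ν ∩ ball x s))) := by
      gcongr
      linarith
    _ = _ := by
      rw [hw]
      field_simp
      ring

end Vale.Agent.P214
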